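import Vale.Agent.Lib.P154Q.Alive
import Vale.Agent.Lib.P154GW.Lag

/-!
# Three colours: from inequalities on triples to the general framework

The pointwise inequalities for three colours are stated on triples `Tp` with the average `avg6`.  This file
transfers them to the framework for `q` colours, which gives nonreconstruction for every offspring law.
-/

open Finset Filter Topology

namespace Vale.Agent.Lib.P154Q

open Vale.Agent.Lib.P154GW

noncomputable section

/-- The triple of a vector. -/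
def toT (c : V 3) : Vale.Agent.Lib.P154.Tp := ⟨c 0, c 1, c 2⟩

/-- The arrangements of three colours. -/
def perms3 : List (Fin 3 → Fin 3) :=
  [![0, 1, 2], ![1, 2, 0], ![2, 0, 1], ![0, 2, 1], ![1, 0, 2], ![2, 1, 0]]

lemma perms3_nodup : perms3.Nodup := by decide +kernel

lemma perms3_image : Finset.image (fun σ : Equiv.Perm (Fin 3) => (σ : Fin 3 → Fin 3)) Finset.univ
    = perms3.toFinset := by decide +kernel

/-- A sum over the permutations of three colours is the sum over the explicit list. -/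
lemma sum_perm_three (F : (Fin 3 → Fin 3) → ℝ) :
    ∑ σ : Equiv.Perm (Fin 3), F σ = (perms3.map F).sum := by
  have h1 : ∑ σ : Equiv.Perm (Fin 3), F σ
      = ∑ f ∈ Finset.image (fun σ : Equiv.Perm (Fin 3) => (σ : Fin 3 → Fin 3)) Finset.univ, F f := by
    rw [Finset.sum_image]
    intro a _ b _ h
    exact DFunLike.coe_injective h
  rw [h1, perms3_image, List.sum_toFinset _ perms3_nodup]

open Vale.Agent.Lib.P154 in
/-- One term of the average. -/
lemma term_three (f : Tp → ℝ) (a b : V 3) :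
    Nf a b * (f ∘ toT) (wF a b) =
      (1 + 3 * sF (toT a) (toT b)) * f (Vale.Agent.Lib.P154.wF (toT a) (toT b)) := by
  have e1 : Nf a b = 1 + 3 * sF (toT a) (toT b) := by
    simp [Nf, sc, Fin.sum_univ_three, sF, toT]
  rw [e1]
  by_cases hN : 1 + 3 * sF (toT a) (toT b) = 0
  · simp [hN]
  · congr 1
    simp only [Function.comp]
    congr 1
    have key : ∀ x y s : ℝ, 1 + 3 * s ≠ 0 →
        ((3 : ℕ) : ℝ) * ((1 / ((3 : ℕ) : ℝ) + x) * (1 / ((3 : ℕ) : ℝ) + y)) / (1 + 3 * s) - 1 / ((3 : ℕ) : ℝ)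
          = (x + y + 3 * (x * y) - s) / (1 + 3 * s) := by
      intro x y s hs
      push_cast
      field_simp
      ring
    apply Tp.ext
    · simp only [toT, wF, Vale.Agent.Lib.P154.wF, cF]
      rw [e1]
      exact key _ _ _ hN
    · simp only [toT, wF, Vale.Agent.Lib.P154.wF, cF]
      rw [e1]
      exact key _ _ _ hN
    · simp only [toT, wF, Vale.Agent.Lib.P154.wF, cF]
      rw [e1]
      exact key _ _ _ hN

open Vale.Agent.Lib.P154 in
/-- The operator `KK` for three colours is the average `avg6`. -/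
lemma KK_three (f : Tp → ℝ) (a b : V 3) :
    KK (f ∘ toT) a b =
      avg6 (fun b' => (1 + 3 * sF (toT a) b') * f (Vale.Agent.Lib.P154.wF (toT a) b')) (toT b) := by
  have e : ((Nat.factorial 3 : ℕ) : ℝ) = 6 := by norm_num [Nat.factorial]
  unfold KK
  rw [e, sum_perm_three (fun σ => Nf a (b ∘ σ) * (f ∘ toT) (wF a (b ∘ σ)))]
  simp only [perms3, List.map_cons, List.map_nil, List.sum_cons, List.sum_nil, term_three, avg6]
  have e0 : toT (b ∘ ![0, 1, 2]) = toT b := rfl
  have e1 : toT (b ∘ ![1, 2, 0]) = (toT b).r1 := rfl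
  have e2 : toT (b ∘ ![2, 0, 1]) = (toT b).r2 := rfl
  have e3 : toT (b ∘ ![0, 2, 1]) = (toT b).r3 := rfl
  have e4 : toT (b ∘ ![1, 0, 2]) = (toT b).r4 := rfl
  have e5 : toT (b ∘ ![2, 1, 0]) = (toT b).r5 := rfl
  rw [e0, e1, e2, e3, e4, e5]
  ring

open Vale.Agent.Lib.P154 in
lemma toT_inSx {l : ℝ} {c : V 3} (h : InSx l c) : Vale.Agent.Lib.P154.InSx l (toT c) := by
  have hz : (toT c).ZS := by
    have := h.1
    simp only [Fin.sum_univ_three] at this
    exact this
  refine ⟨hz, ?_, ?_, ?_⟩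
  · have := h.2 0
    simpa [toT] using this
  · have := h.2 1
    simpa [toT] using this
  · have := h.2 2
    simpa [toT] using this

open Vale.Agent.Lib.P154 in
lemma toT_smul (s : ℝ) (c : V 3) : toT (s • c) = scale s (toT c) := rfl

open Vale.Agent.Lib.P154 in
lemma p2_toT (c : V 3) : p2 c = p2T (toT c) := by
  simp [p2, p2T, toT, Fin.sum_univ_three]

open Vale.Agent.Lib.P154 in
/-- **Nonreconstruction on Galton-Watson trees, three colours**, from inequalities on triples, for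
a general invariant `χ`. -/
theorem tendsto_three {π : ℕ → ℝ} {d lam lb t C K' : ℝ} {ψ χ G H K : Tp → ℝ}
    (hπ0 : ∀ k, 0 ≤ π k) (hπ : HasSum π 1) (hmean : HasSum (fun k : ℕ => (k : ℝ) * π k) d)
    (k₀ : ℕ) (hπ2 : 0 < π (k₀ + 2)) (ht : 0 < t) (h0 : 0 ≤ lam) (hl : lam ≤ lb) (hlb : lb ≤ 1)
    (merge : ∀ a b, Vale.Agent.Lib.P154.InSx 1 a → Vale.Agent.Lib.P154.InSx lb b →
      avg6 (fun b' => (1 + 3 * sF a b') * ψ (Vale.Agent.Lib.P154.wF a b')) b ≤
        ψ a + ψ b - t * (p2T a * p2T b) - G b * χ a - H a * χ b)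
    (inv : ∀ a b, Vale.Agent.Lib.P154.InSx 1 a → Vale.Agent.Lib.P154.InSx lb b →
      χ a + K a * χ b ≤ avg6 (fun b' => (1 + 3 * sF a b') * χ (Vale.Agent.Lib.P154.wF a b')) b)
    (hG : ∀ b, Vale.Agent.Lib.P154.InSx lb b → 0 ≤ G b)
    (hH : ∀ a, Vale.Agent.Lib.P154.InSx 1 a → 0 ≤ H a)
    (hK : ∀ a, Vale.Agent.Lib.P154.InSx 1 a → 0 ≤ K a)
    (hχs : ∀ c, Vale.Agent.Lib.P154.InSx 1 c → lam ^ 3 * χ c ≤ χ (scale lam c))
    (hχ0 : 0 ≤ χ ⟨0, 0, 0⟩)
    (hχ1 : 0 ≤ χ ⟨2 / 3, -1 / 3, -1 / 3⟩) (hχ2 : 0 ≤ χ ⟨-1 / 3, 2 / 3, -1 / 3⟩)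
    (hχ3 : 0 ≤ χ ⟨-1 / 3, -1 / 3, 2 / 3⟩)
    (hψs : ∀ c, Vale.Agent.Lib.P154.InSx 1 c → ψ (scale lam c) ≤ lam ^ 2 * ψ c)
    (hψ0 : ψ ⟨0, 0, 0⟩ ≤ 0) (hψn : ∀ c, Vale.Agent.Lib.P154.InSx 1 c → 0 ≤ ψ c)
    (hge : ∀ c, Vale.Agent.Lib.P154.InSx 1 c → p2T c ≤ K' * ψ c)
    (hbd : ∀ c, Vale.Agent.Lib.P154.InSx 1 c → ψ c ≤ C) (hd : d * lam ^ 2 ≤ 1) :
    Tendsto (advantage π 3 lam) atTop (𝓝 0) := by
  have hl1 : lam ≤ 1 := hl.trans hlb
  have hD : QData (q := 3) lam (fun b => Vale.Agent.Lib.P154.InSx lb (toT b)) (ψ ∘ toT) (ψ ∘ toT)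
      (χ ∘ toT) (G ∘ toT) (H ∘ toT) (fun _ => 1) (K ∘ toT) (lam ^ 3) t (0 + 1) := by
    refine ⟨?_, ?_, fun b hb => hG _ hb, fun a ha => hH _ (toT_inSx ha), fun _ _ => zero_le_one,
      fun a ha => hK _ (toT_inSx ha), ht.le, by positivity, ?_, ?_, ?_, ?_, ?_, ?_, ?_, ?_⟩
    · intro a b ha hb
      rw [KK_three]
      have := merge _ _ (toT_inSx ha) hb
      simp only [Function.comp, zero_add, pow_one, p2_toT]
      linarith
    · intro a b ha hb
      rw [KK_three]
      have := inv _ _ (toT_inSx ha) hb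
      simp only [Function.comp, one_mul]
      linarith
    · intro c hc
      have h1 := toT_inSx hc
      simp only [toT_smul]
      refine ⟨?_, ?_, ?_, ?_⟩
      · have := h1.zs
        simp only [Tp.ZS, scale] at this ⊢
        have e : lam * (toT c).x + lam * (toT c).y + lam * (toT c).z =
          lam * ((toT c).x + (toT c).y + (toT c).z) := by ring
        rw [e, this, mul_zero]
      · simp only [scale]; nlinarith [h1.hx]
      · simp only [scale]; nlinarith [h1.hy]
      · simp only [scale]; nlinarith [h1.hz]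
    · intro i j
      simp only [chan]
      have : 0 ≤ (1 - lam) / ((3 : ℕ) : ℝ) := by
        apply div_nonneg <;> [linarith; positivity]
      split_ifs <;> nlinarith
    · intro c hc
      simp only [Function.comp, toT_smul]
      exact hχs _ (toT_inSx hc)
    · exact hχ0
    · intro τ
      simp only [Function.comp]
      fin_cases τ
      · convert hχ1 using 2
        simp [toT, vertex]
        norm_num
      · convert hχ2 using 2
        simp [toT, vertex]
        norm_num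
      · convert hχ3 using 2
        simp [toT, vertex]
        norm_num
    · intro c hc
      simp only [Function.comp, toT_smul]
      exact hψs _ (toT_inSx hc)
    · intro b _
      exact le_rfl
    · exact hψ0
  exact tendsto_advantage (K := K') (C := C) hπ0 hπ hmean k₀ hπ2 hD ht
    (fun c hc => hψn _ (toT_inSx hc))
    (fun c hc => by rw [p2_toT]; exact hge _ (toT_inSx hc))
    (fun c hc => hbd _ (toT_inSx hc)) hd

end

end Vale.Agent.Lib.P154Q
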