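import Vale.Agent.Lib.P154Q.Final

/-!
# The two offspring laws, and the average over the arrangements of four colours
-/

open Finset Filter Topology

namespace Vale.Agent.Lib.P154Q

open Vale.Agent.Lib.P154GW

noncomputable section

/-- The offspring law of the `d`-ary tree: exactly `d` children. -/
def dirac (d : ℕ) (k : ℕ) : ℝ := if k = d then 1 else 0

lemma dirac_nonneg (d k : ℕ) : 0 ≤ dirac d k := by
  unfold dirac
  split_ifs <;> norm_num

lemma dirac_hasSum (d : ℕ) : HasSum (dirac d) 1 := hasSum_ite_eq d 1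

lemma dirac_mean (d : ℕ) : HasSum (fun k : ℕ => (k : ℝ) * dirac d k) (d : ℝ) := by
  have h := hasSum_ite_eq d (d : ℝ)
  convert h using 1
  funext k
  unfold dirac
  split_ifs with hk
  · rw [hk, mul_one]
  · rw [mul_zero]

lemma dirac_pos (k : ℕ) : 0 < dirac (k + 2) (k + 2) := by
  simp [dirac]

lemma poisson_nonneg {d : ℝ} (hd : 0 ≤ d) (k : ℕ) : 0 ≤ poisson d k := by
  unfold poisson
  positivity

lemma poisson_hasSum (d : ℝ) : HasSum (poisson d) 1 := by
  have h : HasSum (fun n : ℕ => d ^ n / (n.factorial : ℝ)) (Real.exp d) := by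
    have := NormedSpace.expSeries_div_hasSum_exp d
    rwa [Real.exp_eq_exp_ℝ]
  have h2 := h.mul_left (Real.exp (-d))
  have e : Real.exp (-d) * Real.exp d = 1 := by
    rw [← Real.exp_add]; simp
  rw [e] at h2
  have e2 : poisson d = fun i : ℕ => Real.exp (-d) * (d ^ i / (i.factorial : ℝ)) := by
    funext k
    simp only [poisson]
    ring
  rw [e2]
  exact h2

lemma poisson_mean (d : ℝ) : HasSum (fun k : ℕ => (k : ℝ) * poisson d k) d := by
  have h := (poisson_hasSum d).mul_left d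
  rw [mul_one] at h
  rw [← hasSum_nat_add_iff' 1]
  simp only [Finset.sum_range_one, Nat.cast_zero, zero_mul, sub_zero]
  have e2 : (fun k : ℕ => ((k + 1 : ℕ) : ℝ) * poisson d (k + 1)) = fun k : ℕ => d * poisson d k := by
    funext k
    simp only [poisson, Nat.factorial_succ]
    have hk : ((k.factorial : ℕ) : ℝ) ≠ 0 := by positivity
    have hk1 : ((k : ℝ) + 1) ≠ 0 := by positivity
    push_cast
    field_simp
    ring
  rw [e2]
  exact h

lemma poisson_two_pos {d : ℝ} (hd : 0 < d) : 0 < poisson d (0 + 2) := by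
  unfold poisson
  positivity

/-- The arrangements of four colours. -/
def perms4 : List (Fin 4 → Fin 4) :=
  [![0, 1, 2, 3], ![0, 1, 3, 2], ![0, 2, 1, 3], ![0, 2, 3, 1], ![0, 3, 1, 2], ![0, 3, 2, 1],
   ![1, 0, 2, 3], ![1, 0, 3, 2], ![1, 2, 0, 3], ![1, 2, 3, 0], ![1, 3, 0, 2], ![1, 3, 2, 0],
   ![2, 0, 1, 3], ![2, 0, 3, 1], ![2, 1, 0, 3], ![2, 1, 3, 0], ![2, 3, 0, 1], ![2, 3, 1, 0],
   ![3, 0, 1, 2], ![3, 0, 2, 1], ![3, 1, 0, 2], ![3, 1, 2, 0], ![3, 2, 0, 1], ![3, 2, 1, 0]]

lemma perms4_nodup : perms4.Nodup := by decide +kernel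

lemma perms4_image : Finset.image (fun σ : Equiv.Perm (Fin 4) => (σ : Fin 4 → Fin 4)) Finset.univ
    = perms4.toFinset := by decide +kernel

/-- A sum over the permutations of four colours is the sum over the explicit list. -/
lemma sum_perm_four (F : (Fin 4 → Fin 4) → ℝ) :
    ∑ σ : Equiv.Perm (Fin 4), F σ = (perms4.map F).sum := by
  have h1 : ∑ σ : Equiv.Perm (Fin 4), F σ
      = ∑ f ∈ Finset.image (fun σ : Equiv.Perm (Fin 4) => (σ : Fin 4 → Fin 4)) Finset.univ, F f := by
    rw [Finset.sum_image]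
    intro a _ b _ h
    exact DFunLike.coe_injective h
  rw [h1, perms4_image, List.sum_toFinset _ perms4_nodup]

/-- The operator `KK` for four colours, as a sum over an explicit list. -/
lemma KK_four (f : V 4 → ℝ) (a b : V 4) :
    KK f a b = (1 / 24) * (perms4.map (fun σ => Nf a (b ∘ σ) * f (wF a (b ∘ σ)))).sum := by
  have e : ((Nat.factorial 4 : ℕ) : ℝ) = 24 := by
    norm_num [Nat.factorial]
  unfold KK
  rw [e, sum_perm_four (fun σ => Nf a (b ∘ σ) * f (wF a (b ∘ σ)))]

end

end Vale.Agent.Lib.P154Q
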