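import Vale.Agent.Lib.P154Q.Four

/-!
# Extinction: subcritical and critical Poisson trees

A vertex is *alive* when it has a descendant at depth `n`.  On a dead tree the message is uniform, so
the advantage vanishes.  For a Poisson tree of mean at most one the probability of being alive goes to zero.
-/

open Finset Filter Topology

namespace Vale.Agent.Lib.P154Q

open Vale.Agent.Lib.P154GW

noncomputable section

set_option linter.unusedSectionVars false

/-- The indicator of a tree with a vertex at the last level. -/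
def al : (n : ℕ) → Tr n → ℝ
  | 0, _ => 1
  | n + 1, T => 1 - ∏ c : Fin T.1, (1 - al n (T.2 c))

lemma al_succ (n k : ℕ) (T : Fin k → Tr n) : al (n + 1) ⟨k, T⟩ = 1 - ∏ c, (1 - al n (T c)) := rfl

lemma al_mem : ∀ (n : ℕ) (T : Tr n), al n T = 0 ∨ al n T = 1 := by
  intro n
  induction n with
  | zero => intro T; right; rfl
  | succ n ih =>
    rintro ⟨k, T⟩
    rw [al_succ]
    by_cases h : ∀ c, al n (T c) = 0
    · left
      simp [h]
    · right
      push Not at h
      obtain ⟨c, hc⟩ := h
      have : al n (T c) = 1 := (ih (T c)).resolve_left hc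
      have h2 : ∏ c, (1 - al n (T c)) = 0 := Finset.prod_eq_zero (Finset.mem_univ c) (by simp [this])
      simp [h2]

lemma al_nonneg (n : ℕ) (T : Tr n) : 0 ≤ al n T := by
  rcases al_mem n T with h | h <;> rw [h] <;> norm_num

lemma al_le_one (n : ℕ) (T : Tr n) : al n T ≤ 1 := by
  rcases al_mem n T with h | h <;> rw [h] <;> norm_num

lemma al_zero_children {n k : ℕ} {T : Fin k → Tr n} (h : al (n + 1) ⟨k, T⟩ = 0) (c : Fin k) :
    al n (T c) = 0 := by
  rw [al_succ] at h
  have h1 : ∏ c, (1 - al n (T c)) = 1 := by linarith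
  rcases al_mem n (T c) with h2 | h2
  · exact h2
  · have h3 : ∏ c, (1 - al n (T c)) = 0 := Finset.prod_eq_zero (Finset.mem_univ c) (by simp [h2])
    rw [h3] at h1
    norm_num at h1

variable {q : ℕ} [NeZero q] {lam : ℝ}

/-- On a dead tree the likelihood does not depend on the root spin. -/
lemma lik_const : ∀ (n : ℕ) (T : Tr n), al n T = 0 → ∀ (ω : Leaves q n T) (i j : Fin q),
    lik q lam n T ω i = lik q lam n T ω j := by
  intro n
  induction n with
  | zero =>
    intro T h
    exact absurd h (by simp [al])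
  | succ n ih =>
    rintro ⟨k, T⟩ h ω i j
    rw [lik_succ, lik_succ]
    apply Finset.prod_congr rfl
    intro c _
    have hc := al_zero_children h c
    have e : ∀ i' : Fin q, childLik lam n (T c) (ω c) i' = lik q lam n (T c) (ω c) i := by
      intro i'
      unfold childLik
      have : ∀ j', chan q lam i' j' * lik q lam n (T c) (ω c) j' =
          chan q lam i' j' * lik q lam n (T c) (ω c) i := fun j' => by rw [ih _ hc (ω c) j' i]
      simp only [this]
      rw [← Finset.sum_mul, chan_sum, one_mul]
    rw [e i, e j]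

/-- On a dead tree the message is uniform. -/
lemma xT_dead {n : ℕ} {T : Tr n} (h : al n T = 0) (ω : Leaves q n T) :
    xT lam n T ω = MM (xT (q := q) lam n T ω) • uni := by
  have hq : (q : ℝ) ≠ 0 := q_ne
  funext i
  simp only [Pi.smul_apply, smul_eq_mul, uni, MM, xT]
  have : ∀ j, lik q lam n T ω j = lik q lam n T ω i := fun j => lik_const n T h ω j i
  simp only [this, Finset.sum_const, Finset.card_univ, Fintype.card_fin, nsmul_eq_mul]
  field_simp

/-- The centred message of a dead tree vanishes. -/
lemma cen_xT_dead {n : ℕ} {T : Tr n} (h : al n T = 0) (ω : Leaves q n T)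
    (hm : 0 < MM (xT (q := q) lam n T ω)) : cen (xT (q := q) lam n T ω) = 0 := by
  have hq : (q : ℝ) ≠ 0 := q_ne
  funext i
  simp only [cen, Pi.zero_apply]
  have e := congrFun (xT_dead (lam := lam) h ω) i
  simp only [Pi.smul_apply, smul_eq_mul, uni] at e
  rw [e]
  field_simp
  simp

lemma advTree_dead {n : ℕ} {T : Tr n} (h : al n T = 0) : advTree q lam n T = 0 := by
  rw [advTree_eq]
  apply Finset.sum_eq_zero
  intro ω _
  by_cases hm : MM (xT (q := q) lam n T ω) = 0
  · simp [hm]
  · by_cases hp : 0 < MM (xT (q := q) lam n T ω)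
    · rw [cen_xT_dead h ω hp]
      simp
    · -- negative mass: the channel may be arbitrary, but the message is still uniform
      have hq : (q : ℝ) ≠ 0 := q_ne
      have e : cen (xT (q := q) lam n T ω) = 0 := by
        funext i
        simp only [cen, Pi.zero_apply]
        have e := congrFun (xT_dead (lam := lam) h ω) i
        simp only [Pi.smul_apply, smul_eq_mul, uni] at e
        rw [e]
        field_simp
        simp
      rw [e]
      simp

/-- The advantage on a fixed tree is at most one. -/
lemma advTree_le_one (hch : ∀ i j, 0 ≤ chan q lam i j) (n : ℕ) (T : Tr n) : advTree q lam n T ≤ 1 := by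
  rw [advTree_eq]
  have h : ∑ ω : Leaves q n T, MM (xT (q := q) lam n T ω) *
      ((1 / 2) * ∑ i, |cen (xT (q := q) lam n T ω) i|) ≤ ∑ ω : Leaves q n T, MM (xT (q := q) lam n T ω) := by
    apply Finset.sum_le_sum
    intro ω _
    rcases (MM_nonneg (xT_nn hch n T ω)).eq_or_lt with h0 | hp
    · simp [← h0]
    · have hc := cen_inSx (xT_nn hch n T ω) hp
      set c := cen (xT (q := q) lam n T ω) with hcdef
      have hq : (q : ℝ) ≠ 0 := q_ne
      have h2 : ∑ i, |c i| ≤ ∑ i, (c i + 2 * (1 / (q : ℝ))) := by
        apply Finset.sum_le_sum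
        intro i _
        have h3 := hc.2 i
        have e : -(1 : ℝ) / (q : ℝ) = - (1 / (q : ℝ)) := by ring
        rw [e] at h3
        have h4 : 0 ≤ 1 / (q : ℝ) := by
          have := q_pos (q := q)
          positivity
        exact _root_.abs_le.2 ⟨by linarith, by linarith⟩
      have h3 : ∑ i, (c i + 2 * (1 / (q : ℝ))) = 2 := by
        rw [Finset.sum_add_distrib, hc.1]
        simp
        field_simp
      rw [h3] at h2
      have h4 : (1 / 2) * ∑ i, |c i| ≤ 1 := by linarith
      calc _ ≤ MM (xT (q := q) lam n T ω) * 1 := mul_le_mul_of_nonneg_left h4 hp.le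
        _ = _ := mul_one _
  rwa [sum_xT_mass] at h

variable {π : ℕ → ℝ}

/-- The probability of being alive at depth `n`. -/
def pAl (π : ℕ → ℝ) (n : ℕ) : ℝ := ∑' T : Tr n, treeProb π n T * al n T

lemma pAl_hasSum (hπ0 : ∀ k, 0 ≤ π k) (hπ : HasSum π 1) (n : ℕ) :
    HasSum (fun T : Tr n => treeProb π n T * al n T) (pAl π n) := by
  refine Summable.hasSum ?_
  refine Summable.of_nonneg_of_le (fun T => mul_nonneg (treeProb_nonneg hπ0 n T) (al_nonneg n T))
    (fun T => ?_) (hasSum_treeProb hπ0 hπ n).summable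
  calc _ ≤ treeProb π n T * 1 := mul_le_mul_of_nonneg_left (al_le_one n T) (treeProb_nonneg hπ0 n T)
    _ = _ := mul_one _

lemma pAl_le_one (hπ0 : ∀ k, 0 ≤ π k) (hπ : HasSum π 1) (n : ℕ) : pAl π n ≤ 1 := by
  refine hasSum_le (fun T => ?_) (pAl_hasSum hπ0 hπ n) (hasSum_treeProb hπ0 hπ n)
  calc _ ≤ treeProb π n T * 1 := mul_le_mul_of_nonneg_left (al_le_one n T) (treeProb_nonneg hπ0 n T)
    _ = _ := mul_one _

lemma pAl_nonneg (hπ0 : ∀ k, 0 ≤ π k) (n : ℕ) : 0 ≤ pAl π n :=
  tsum_nonneg fun T => mul_nonneg (treeProb_nonneg hπ0 n T) (al_nonneg n T)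

/-- The recursion for the survival probability. -/
lemma pAl_succ (hπ0 : ∀ k, 0 ≤ π k) (hπ : HasSum π 1) (n : ℕ) :
    HasSum (fun k : ℕ => π k * (1 - (1 - pAl π n) ^ k)) (pAl π (n + 1)) := by
  have hp := pAl_hasSum hπ0 hπ n
  have hP := hasSum_treeProb hπ0 hπ n
  have hP0 := treeProb_nonneg hπ0 n
  have hs := pAl_hasSum hπ0 hπ (n + 1)
  -- fibres
  have hfib : ∀ k : ℕ, HasSum (fun T : Fin k → Tr n => treeProb π (n + 1) ⟨k, T⟩ * al (n + 1) ⟨k, T⟩)
      (π k * (1 - (1 - pAl π n) ^ k)) := by
    intro k
    have h1 := hasSum_prod_fin k (fun _ => treeProb π n) (fun _ => 1) (fun _ x => hP0 x) (fun _ => hP)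
    have h2 := hasSum_prod_fin k (fun _ x => treeProb π n x * (1 - al n x)) (fun _ => 1 - pAl π n)
      (fun _ x => mul_nonneg (hP0 x) (by linarith [al_le_one n x]))
      (fun _ => by
        have := hP.sub hp
        simpa [mul_sub, mul_one] using this)
    have h3 := (h1.sub h2).mul_left (π k)
    simp only [Finset.prod_const_one, Finset.prod_const, Finset.card_univ, Fintype.card_fin] at h3
    have e : (fun T : Fin k → Tr n => treeProb π (n + 1) ⟨k, T⟩ * al (n + 1) ⟨k, T⟩)
        = fun i => π k * (∏ c, treeProb π n (i c) - ∏ c, treeProb π n (i c) * (1 - al n (i c))) := by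
      funext T
      rw [treeProb_succ, al_succ, Finset.prod_mul_distrib]
      ring
    rw [e]
    exact h3
  exact HasSum.sigma hs hfib

/-- The probability generating function of the Poisson law. -/
lemma poisson_pgf (d x : ℝ) : HasSum (fun k : ℕ => poisson d k * x ^ k) (Real.exp (-(d * (1 - x)))) := by
  have h : HasSum (fun n : ℕ => (d * x) ^ n / (n.factorial : ℝ)) (Real.exp (d * x)) := by
    have := NormedSpace.expSeries_div_hasSum_exp (d * x)
    rwa [Real.exp_eq_exp_ℝ]
  have h2 := h.mul_left (Real.exp (-d))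
  have e : Real.exp (-d) * Real.exp (d * x) = Real.exp (-(d * (1 - x))) := by
    rw [← Real.exp_add]
    congr 1
    ring
  rw [e] at h2
  have e2 : (fun k : ℕ => poisson d k * x ^ k) = fun i : ℕ => Real.exp (-d) * ((d * x) ^ i / (i.factorial : ℝ)) := by
    funext k
    simp only [poisson, mul_pow]
    ring
  rw [e2]
  exact h2

/-- The survival probabilities of the Poisson tree. -/
lemma pAl_poisson {d : ℝ} (hd : 0 ≤ d) (n : ℕ) :
    pAl (poisson d) (n + 1) = 1 - Real.exp (-(d * pAl (poisson d) n)) := by
  have h := pAl_succ (poisson_nonneg hd) (poisson_hasSum d) n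
  have h2 := (poisson_hasSum d).sub (poisson_pgf d (1 - pAl (poisson d) n))
  have e : (fun k : ℕ => poisson d k - poisson d k * (1 - pAl (poisson d) n) ^ k)
      = fun k : ℕ => poisson d k * (1 - (1 - pAl (poisson d) n) ^ k) := by
    funext k
    ring
  rw [e] at h2
  have e3 : 1 - (1 - pAl (poisson d) n) = pAl (poisson d) n := by ring
  rw [e3] at h2
  exact h.unique h2

/-- The survival probability goes to zero when the mean is at most one. -/
lemma pAl_tendsto {d : ℝ} (hd0 : 0 ≤ d) (hd : d ≤ 1) :
    Tendsto (pAl (poisson d)) atTop (𝓝 0) := by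
  set p := pAl (poisson d) with hp
  have hp0 : ∀ n, 0 ≤ p n := pAl_nonneg (poisson_nonneg hd0)
  have hrec : ∀ n, p (n + 1) = 1 - Real.exp (-(d * p n)) := pAl_poisson hd0
  have hanti : Antitone p := by
    apply antitone_nat_of_succ_le
    intro n
    rw [hrec]
    have h1 := Real.add_one_le_exp (-(d * p n))
    have h2 : d * p n ≤ p n := by nlinarith [hp0 n]
    linarith
  have hbdd : BddBelow (Set.range p) := ⟨0, by rintro _ ⟨n, rfl⟩; exact hp0 n⟩
  have hlim := tendsto_atTop_ciInf hanti hbdd
  set L := ⨅ n, p n with hL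
  have hL0 : 0 ≤ L := le_ciInf hp0
  have hfix : L = 1 - Real.exp (-(d * L)) := by
    have h1 : Tendsto (fun n => p (n + 1)) atTop (𝓝 L) := hlim.comp (tendsto_add_atTop_nat 1)
    have h2 : Tendsto (fun n => 1 - Real.exp (-(d * p n))) atTop (𝓝 (1 - Real.exp (-(d * L)))) := by
      apply Tendsto.sub tendsto_const_nhds
      exact Real.continuous_exp.continuousAt.tendsto.comp ((hlim.const_mul d).neg)
    simp only [hrec] at h1
    exact tendsto_nhds_unique h1 h2
  have hLz : L = 0 := by
    by_contra hne
    have hLpos : 0 < L := lt_of_le_of_ne hL0 (Ne.symm hne)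
    rcases eq_or_lt_of_le (mul_nonneg hd0 hL0) with h0 | hpos
    · rw [← h0] at hfix
      simp at hfix
      exact hne hfix
    · have h1 := Real.add_one_lt_exp (x := -(d * L)) (by
        have : d * L ≠ 0 := ne_of_gt hpos
        simpa using this)
      have h2 : d * L ≤ L := by nlinarith
      linarith
  rwa [hLz] at hlim

/-- **Extinction**: for Poisson offspring of mean at most one the advantage goes to zero. -/
theorem tendsto_extinct {d : ℝ} (hd0 : 0 ≤ d) (hd : d ≤ 1) (hch : ∀ i j, 0 ≤ chan q lam i j) :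
    Tendsto (advantage (poisson d) q lam) atTop (𝓝 0) := by
  have hπ0 := poisson_nonneg hd0
  have hπ := poisson_hasSum d
  have hlim := pAl_tendsto hd0 hd
  have hle : ∀ n T, advTree q lam n T ≤ al n T := by
    intro n T
    rcases al_mem n T with h | h
    · rw [advTree_dead h, h]
    · rw [h]
      exact advTree_le_one hch n T
  refine squeeze_zero (fun n => ?_) (fun n => ?_) hlim
  · exact tsum_nonneg fun T => mul_nonneg (treeProb_nonneg hπ0 n T) (advTree_nonneg hch n T)
  · exact hasSum_le (fun T => mul_le_mul_of_nonneg_left (hle n T) (treeProb_nonneg hπ0 n T))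
      (advantage_bounds hπ0 hπ hch n).1.hasSum (pAl_hasSum hπ0 hπ n)

end

end Vale.Agent.Lib.P154Q
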