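import Vale.Agent.Lib.P154Q.Four

/-!
# The binary tree: one merge at each vertex

On the rooted binary tree the merge happens only between two messages of the scaled simplex.
-/

open Finset Filter Topology

namespace Vale.Agent.Lib.P154Q

open Vale.Agent.Lib.P154GW

noncomputable section

variable {q : ℕ} [NeZero q]

/-- The data of the argument on the binary tree. -/
structure QData2 (lam : ℝ) (B : V q → Prop) (ψ Y χ G H v w : V q → ℝ) (f t : ℝ) (m : ℕ) : Prop where
  /-- The merge inequality with Lagrange terms. -/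
  merge : ∀ a b, B a → B b →
    KK ψ a b ≤ ψ a + Y b - G b * χ a - H a * χ b - t * (p2 a * p2 b ^ m)
  /-- The invariant. -/
  inv : ∀ a b, B a → B b → v b * χ a + w a * χ b ≤ KK χ a b
  G0 : ∀ b, B b → 0 ≤ G b
  H0 : ∀ a, B a → 0 ≤ H a
  v0 : ∀ b, B b → 0 ≤ v b
  w0 : ∀ a, B a → 0 ≤ w a
  t0 : 0 ≤ t
  f0 : 0 ≤ f
  /-- The scaled simplex is in `B`. -/
  scaleB : ∀ c, InSx 1 c → B (lam • c)
  /-- The channel has nonnegative entries. -/
  hch : ∀ i j, 0 ≤ chan q lam i j
  /-- The invariant on the scaled simplex. -/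
  chi_scale : ∀ c, InSx 1 c → f * χ c ≤ χ (lam • c)
  chi_vertex : ∀ τ : Fin q, 0 ≤ χ (vertex τ)
  /-- The value of the potential on the scaled simplex. -/
  Y_scale : ∀ c, InSx 1 c → Y (lam • c) ≤ lam ^ 2 * ψ c
  psi_le_Y : ∀ b, B b → ψ b ≤ Y b

variable {lam : ℝ} {B : V q → Prop} {ψ Y χ G H v w : V q → ℝ} {f t : ℝ} {m : ℕ}

section families

variable {Ω : Type} [Fintype Ω]

/-- One step of the recursion for the invariant. -/
lemma inv_step2 (hD : QData2 lam B ψ Y χ G H v w f t m) {y : Ω → V q} (hy : Fam y)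
    (hyd : ∀ ξ, 0 < MM (y ξ) → B (cen (y ξ))) (hpy : 0 ≤ ∑ ξ, GG χ (y ξ)) :
    0 ≤ ∑ η, ∑ ξ, GG χ (mrg (y η) (y ξ)) := by
  rw [fam_KK hy hy.nn]
  have key := sum_le_of_pt hy.nn hy.nn hyd hyd (u := fun a b => v b * χ a + w a * χ b)
    (u' := KK χ) hD.inv
  have e : ∑ η, ∑ ξ, MM (y η) * MM (y ξ) * (v (cen (y ξ)) * χ (cen (y η)) + w (cen (y η)) * χ (cen (y ξ)))
      = (∑ η, GG χ (y η)) * (∑ ξ, GG v (y ξ)) + (∑ η, GG w (y η)) * (∑ ξ, GG χ (y ξ)) := by
    rw [← sum_product y y χ v, ← sum_product y y w χ, ← Finset.sum_add_distrib]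
    apply Finset.sum_congr rfl
    intro η _
    rw [← Finset.sum_add_distrib]
    apply Finset.sum_congr rfl
    intro ξ _
    ring
  rw [e] at key
  have hv : 0 ≤ ∑ ξ, GG v (y ξ) :=
    Finset.sum_nonneg fun ξ _ => GG_nonneg_on (hy.nn ξ) (hyd ξ) hD.v0
  have hw : 0 ≤ ∑ η, GG w (y η) :=
    Finset.sum_nonneg fun η _ => GG_nonneg_on (hy.nn η) (hyd η) hD.w0
  have h1 := mul_nonneg hpy hv
  have h2 := mul_nonneg hw hpy
  linarith

/-- One step of the recursion for the potential. -/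
lemma psi_step2 (hD : QData2 lam B ψ Y χ G H v w f t m) {y : Ω → V q} (hy : Fam y)
    (hyd : ∀ ξ, 0 < MM (y ξ) → B (cen (y ξ))) (hpy : 0 ≤ ∑ ξ, GG χ (y ξ)) :
    ∑ η, ∑ ξ, GG ψ (mrg (y η) (y ξ)) ≤ ∑ η, GG ψ (y η) + ∑ ξ, GG Y (y ξ)
      - t * ((∑ η, GG p2 (y η)) * ∑ ξ, GG (fun c => p2 c ^ m) (y ξ)) := by
  rw [fam_KK hy hy.nn]
  have key := sum_le_of_pt hy.nn hy.nn hyd hyd (u := KK ψ)
    (u' := fun a b => ψ a + Y b - G b * χ a - H a * χ b - t * (p2 a * p2 b ^ m)) hD.merge
  have e1 : ∑ η, GG ψ (y η) = ∑ η, ∑ ξ, MM (y η) * MM (y ξ) * (ψ (cen (y η)) * 1) := by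
    apply Finset.sum_congr rfl
    intro η _
    have : ∑ ξ, MM (y η) * MM (y ξ) * (ψ (cen (y η)) * 1)
        = GG ψ (y η) * ∑ ξ, MM (y ξ) := by
      rw [Finset.mul_sum]
      apply Finset.sum_congr rfl
      intro ξ _
      simp only [GG]
      ring
    rw [this, hy.mass, mul_one]
  have e2 : ∑ ξ, GG Y (y ξ) = ∑ η, ∑ ξ, MM (y η) * MM (y ξ) * (1 * Y (cen (y ξ))) := by
    rw [Finset.sum_comm]
    apply Finset.sum_congr rfl
    intro ξ _
    have : ∑ η, MM (y η) * MM (y ξ) * (1 * Y (cen (y ξ)))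
        = (∑ η, MM (y η)) * GG Y (y ξ) := by
      rw [Finset.sum_mul]
      apply Finset.sum_congr rfl
      intro η _
      simp only [GG]
      ring
    rw [this, hy.mass, one_mul]
  have hG := sum_product y y χ G
  have hH := sum_product y y H χ
  have hT := sum_product y y p2 (fun c => p2 c ^ m)
  have hexp : ∑ η, ∑ ξ, MM (y η) * MM (y ξ) * (ψ (cen (y η)) + Y (cen (y ξ)) - G (cen (y ξ)) * χ (cen (y η))
        - H (cen (y η)) * χ (cen (y ξ)) - t * (p2 (cen (y η)) * p2 (cen (y ξ)) ^ m))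
      = ∑ η, GG ψ (y η) + ∑ ξ, GG Y (y ξ) - (∑ η, GG χ (y η)) * (∑ ξ, GG G (y ξ))
        - (∑ η, GG H (y η)) * (∑ ξ, GG χ (y ξ))
        - t * ((∑ η, GG p2 (y η)) * ∑ ξ, GG (fun c => p2 c ^ m) (y ξ)) := by
    rw [e1, e2, ← hG, ← hH, ← hT, Finset.mul_sum, ← Finset.sum_add_distrib, ← Finset.sum_sub_distrib,
      ← Finset.sum_sub_distrib, ← Finset.sum_sub_distrib]
    apply Finset.sum_congr rfl
    intro η _
    rw [Finset.mul_sum, ← Finset.sum_add_distrib, ← Finset.sum_sub_distrib,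
      ← Finset.sum_sub_distrib, ← Finset.sum_sub_distrib]
    apply Finset.sum_congr rfl
    intro ξ _
    ring
  refine (le_trans key (le_of_eq hexp)).trans ?_
  have hGn : 0 ≤ ∑ ξ, GG G (y ξ) :=
    Finset.sum_nonneg fun ξ _ => GG_nonneg_on (hy.nn ξ) (hyd ξ) hD.G0
  have hHn : 0 ≤ ∑ η, GG H (y η) :=
    Finset.sum_nonneg fun η _ => GG_nonneg_on (hy.nn η) (hyd η) hD.H0
  have h1 := mul_nonneg hpy hGn
  have h2 := mul_nonneg hHn hpy
  linarith

/-- The sum over the two children. -/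
lemma sum_two_children (y : Ω → V q) (φ : V q → ℝ) :
    ∑ ω : (∀ _ : Fin 2, Ω), GG φ (mergeAll (fun _ => y) ω) = ∑ a, ∑ b, GG φ (mrg (y a) (y b)) := by
  rw [← Equiv.sum_comp (piFinTwoEquiv (fun _ => Ω)).symm, Fintype.sum_prod_type]
  apply Finset.sum_congr rfl
  intro a _
  apply Finset.sum_congr rfl
  intro b _
  congr 1
  funext i
  have hq : (q : ℝ) ≠ 0 := q_ne
  simp only [mergeAll, mrg, Fin.prod_univ_two, piFinTwoEquiv]
  simp
  field_simp

end families

/-- The complete binary tree. -/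
def cb : (n : ℕ) → Tr n
  | 0 => ()
  | n + 1 => ⟨2, fun _ => cb n⟩

lemma treeProb_cb (n : ℕ) : treeProb (dirac 2) n (cb n) = 1 := by
  induction n with
  | zero => rfl
  | succ n ih =>
    have e : treeProb (dirac 2) (n + 1) (cb (n + 1)) = dirac 2 2 * ∏ c : Fin 2, treeProb (dirac 2) n (cb n) := rfl
    rw [e, ih]
    simp [dirac]

lemma treeProb_ne (n : ℕ) (T : Tr n) (h : T ≠ cb n) : treeProb (dirac 2) n T = 0 := by
  induction n with
  | zero => exact absurd rfl h
  | succ n ih =>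
    obtain ⟨k, T'⟩ := T
    have e : treeProb (dirac 2) (n + 1) ⟨k, T'⟩ = dirac 2 k * ∏ c : Fin k, treeProb (dirac 2) n (T' c) := rfl
    rw [e]
    by_cases hk : k = 2
    · subst hk
      have : ∃ c, T' c ≠ cb n := by
        by_contra hall
        push Not at hall
        apply h
        have : T' = fun _ => cb n := funext hall
        rw [this]
        rfl
      obtain ⟨c, hc⟩ := this
      rw [Finset.prod_eq_zero (Finset.mem_univ c) (ih _ hc), mul_zero]
    · simp [dirac, hk]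

omit [NeZero q] in
/-- On the law of the binary tree, the expectation is the value at the complete binary tree. -/
lemma advantage_binary (n : ℕ) : advantage (dirac 2) q lam n = advTree q lam n (cb n) := by
  unfold advantage
  rw [tsum_eq_single (cb n)]
  · rw [treeProb_cb, one_mul]
  · intro T hT
    rw [treeProb_ne n T hT, zero_mul]

lemma Sp_cb_succ (φ : V q → ℝ) (n : ℕ) :
    Sp (q := q) lam φ (n + 1) (cb (n + 1)) =
      ∑ a, ∑ b, GG φ (mrg (yT lam n (cb n) a) (yT lam n (cb n) b)) := by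
  have e : cb (n + 1) = ⟨2, fun _ => cb n⟩ := rfl
  rw [e, Sp_succ]
  exact sum_two_children _ _

lemma child_dom2 (hD : QData2 lam B ψ Y χ G H v w f t m) (n : ℕ) (ξ : Leaves q n (cb n))
    (h : 0 < MM (yT (q := q) lam n (cb n) ξ)) : B (cen (yT lam n (cb n) ξ)) := by
  rw [MM_yT] at h
  rw [cen_yT n (cb n) ξ h]
  exact hD.scaleB _ (cen_inSx (xT_nn hD.hch n (cb n) ξ) h)

/-- The invariant along the binary tree. -/
lemma Sp_chi_cb (hD : QData2 lam B ψ Y χ G H v w f t m) (n : ℕ) :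
    0 ≤ Sp (q := q) lam χ n (cb n) := by
  induction n with
  | zero =>
    unfold Sp
    apply Finset.sum_nonneg
    intro τ _
    obtain ⟨h1, h2⟩ := cen_xT_zero (q := q) (lam := lam) (cb 0) τ
    simp only [GG]
    rw [h2]
    exact mul_nonneg h1.le (hD.chi_vertex τ)
  | succ n ih =>
    rw [Sp_cb_succ]
    exact inv_step2 hD (yT_fam hD.hch n (cb n)) (child_dom2 hD n)
      ((mul_nonneg hD.f0 ih).trans (le_sum_yT hD.hch hD.chi_scale n (cb n)))

/-- The recursion along the binary tree. -/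
lemma Sp_cb_rec (hD : QData2 lam B ψ Y χ G H v w f t m) (n : ℕ) :
    Sp (q := q) lam ψ (n + 1) (cb (n + 1)) ≤ 2 * lam ^ 2 * Sp (q := q) lam ψ n (cb n)
      - t * lam ^ (2 + 2 * m) *
        (Sp (q := q) lam p2 n (cb n) * Sp (q := q) lam (fun c => p2 c ^ m) n (cb n)) := by
  rw [Sp_cb_succ]
  have hch := hD.hch
  have hfam := yT_fam hch n (cb n)
  have hdom := child_dom2 hD n
  have hchi : 0 ≤ ∑ ξ, GG χ (yT (q := q) lam n (cb n) ξ) :=
    (mul_nonneg hD.f0 (Sp_chi_cb hD n)).trans (le_sum_yT hch hD.chi_scale n (cb n))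
  have key := psi_step2 hD hfam hdom hchi
  have h1 : ∑ ξ, GG ψ (yT (q := q) lam n (cb n) ξ) ≤ ∑ ξ, GG Y (yT (q := q) lam n (cb n) ξ) := by
    apply Finset.sum_le_sum
    intro ξ _
    rcases (MM_nonneg (hfam.nn ξ)).eq_or_lt with h0 | h1
    · simp [GG, ← h0]
    · exact mul_le_mul_of_nonneg_left (hD.psi_le_Y _ (hdom ξ h1)) h1.le
  have h2 := sum_yT_le hch hD.Y_scale n (cb n)
  have h3 := child_p2' hch n (cb n)
  have h4 := child_p2 hch m n (cb n)
  have hS1 : 0 ≤ Sp (q := q) lam p2 n (cb n) := Sp_nonneg hch (fun c _ => p2_nonneg c) n _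
  have hS2 : 0 ≤ Sp (q := q) lam (fun c => p2 c ^ m) n (cb n) :=
    Sp_nonneg hch (fun c _ => pow_nonneg (p2_nonneg c) m) n _
  have h5 : (lam ^ 2 * Sp (q := q) lam p2 n (cb n)) * (lam ^ (2 * m) * Sp (q := q) lam (fun c => p2 c ^ m) n (cb n))
      ≤ (∑ ξ, GG p2 (yT (q := q) lam n (cb n) ξ)) * ∑ ξ, GG (fun c => p2 c ^ m) (yT (q := q) lam n (cb n) ξ) := by
    apply mul_le_mul h3 h4
    · have : 0 ≤ lam ^ (2 * m) := by
        rw [pow_mul]; positivity
      exact mul_nonneg this hS2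
    · exact Finset.sum_nonneg fun ξ _ => GG_p2_nonneg (hfam.nn ξ)
  have h6 := mul_le_mul_of_nonneg_left h5 hD.t0
  have e : t * ((lam ^ 2 * Sp (q := q) lam p2 n (cb n)) * (lam ^ (2 * m) * Sp (q := q) lam (fun c => p2 c ^ m) n (cb n)))
      = t * lam ^ (2 + 2 * m) * (Sp (q := q) lam p2 n (cb n) * Sp (q := q) lam (fun c => p2 c ^ m) n (cb n)) := by
    rw [pow_add]
    ring
  rw [e] at h6
  linarith

/-- Jensen for the powers of the second power sum on a fixed tree. -/
lemma pow_le_Sp (hch : ∀ i j, 0 ≤ chan q lam i j) (n m : ℕ) (T : Tr n) :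
    Sp (q := q) lam p2 n T ^ m ≤ Sp (q := q) lam (fun c => p2 c ^ m) n T := by
  unfold Sp
  simp only [GG]
  exact Real.pow_arith_mean_le_arith_mean_pow _ _ _ (fun ω _ => MM_nonneg (xT_nn hch n T ω))
    (sum_xT_mass n T) (fun ω _ => p2_nonneg _) m

/-- **Nonreconstruction on the binary tree**, with the merge inequality only on the scaled simplex. -/
theorem tendsto_binary (hD : QData2 lam B ψ Y χ G H v w f t (m + 1)) (ht : 0 < t)
    (hψ0 : ∀ c, InSx 1 c → 0 ≤ ψ c) (hd : 2 * lam ^ 2 ≤ 1) {K : ℝ}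
    (hge : ∀ c, InSx 1 c → p2 c ≤ K * ψ c) :
    Tendsto (advantage (dirac 2) q lam) atTop (𝓝 0) := by
  have hch := hD.hch
  have hq : (0 : ℝ) < q := q_pos
  set E : ℕ → ℝ := fun n => Sp (q := q) lam ψ n (cb n) with hE
  set A : ℕ → ℝ := fun n => Sp (q := q) lam p2 n (cb n) with hA
  set A' : ℕ → ℝ := fun n => Sp (q := q) lam (fun c => p2 c ^ (m + 1)) n (cb n) with hA'
  have hE0 : ∀ n, 0 ≤ E n := fun n => Sp_nonneg hch hψ0 n _
  have hA0 : ∀ n, 0 ≤ A n := fun n => Sp_nonneg hch (fun c _ => p2_nonneg c) n _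
  have hAA' : ∀ n, A n ^ (m + 1) ≤ A' n := fun n => pow_le_Sp hch n (m + 1) _
  have hrec : ∀ n, E (n + 1) ≤ 2 * lam ^ 2 * E n - t * lam ^ (2 + 2 * (m + 1)) * (A n * A' n) :=
    fun n => Sp_cb_rec hD n
  have hlim2 : Tendsto A atTop (𝓝 0) := by
    rcases eq_or_ne lam 0 with hl0 | hlne
    · have hK : ∀ n, A n ≤ max K 0 * E n := by
        intro n
        simp only [hA, hE, Sp]
        rw [Finset.mul_sum]
        apply Finset.sum_le_sum
        intro ω _
        rcases (MM_nonneg (xT_nn hch n (cb n) ω)).eq_or_lt with h | h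
        · simp [GG, ← h]
        · simp only [GG]
          have hc := cen_inSx (xT_nn hch n (cb n) ω) h
          have h4 : p2 (cen (xT (q := q) lam n (cb n) ω)) ≤ max K 0 * ψ (cen (xT (q := q) lam n (cb n) ω)) :=
            (hge _ hc).trans (mul_le_mul_of_nonneg_right (le_max_left _ _) (hψ0 _ hc))
          have := mul_le_mul_of_nonneg_left h4 h.le
          calc _ ≤ _ := this
            _ = _ := by ring
      have hz : ∀ n, A (n + 1) = 0 := by
        intro n
        have h3 := hrec n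
        rw [hl0] at h3
        have e : (0 : ℝ) ^ (2 + 2 * (m + 1)) = 0 := by simp
        rw [e] at h3
        simp only [mul_zero, ne_eq, OfNat.ofNat_ne_zero, not_false_eq_true, zero_pow, zero_mul, sub_zero] at h3
        have h4 := hE0 (n + 1)
        have h5 : E (n + 1) = 0 := le_antisymm h3 h4
        have h6 := hK (n + 1)
        rw [h5, mul_zero] at h6
        exact le_antisymm h6 (hA0 _)
      rw [← tendsto_add_atTop_iff_nat 1]
      simp only [hz]
      exact tendsto_const_nhds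
    · have hl2 : 0 < lam ^ 2 := by positivity
      have hlp : 0 < lam ^ (2 + 2 * (m + 1)) := by
        rw [pow_add, pow_mul]
        positivity
      have hc : 0 < t * lam ^ (2 + 2 * (m + 1)) := by positivity
      set c := t * lam ^ (2 + 2 * (m + 1)) with hcdef
      have hstep : ∀ n, c * A n ^ (m + 2) ≤ E n - E (n + 1) := by
        intro n
        have h3 := hrec n
        have h4 := mul_le_mul_of_nonneg_right hd (hE0 n)
        have h5 := mul_le_mul_of_nonneg_left (hAA' n) (hA0 n)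
        have h6 := mul_le_mul_of_nonneg_left h5 hc.le
        have e : A n * A n ^ (m + 1) = A n ^ (m + 2) := by ring
        rw [e] at h6
        linarith
      have hanti : Antitone E := by
        apply antitone_nat_of_succ_le
        intro n
        have h3 := hstep n
        have h5 : 0 ≤ c * A n ^ (m + 2) := mul_nonneg hc.le (pow_nonneg (hA0 n) _)
        linarith
      have hbdd : BddBelow (Set.range E) := ⟨0, by rintro _ ⟨n, rfl⟩; exact hE0 n⟩
      have hlim := tendsto_atTop_ciInf hanti hbdd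
      have hdiff : Tendsto (fun n => E n - E (n + 1)) atTop (𝓝 0) := by
        have := hlim.sub (hlim.comp (tendsto_add_atTop_nat 1))
        simpa using this
      have hsq : Tendsto (fun n => A n ^ (m + 2)) atTop (𝓝 0) := by
        have h3 : Tendsto (fun n => c⁻¹ * (E n - E (n + 1))) atTop (𝓝 0) := by
          have := hdiff.const_mul (c⁻¹)
          rwa [mul_zero] at this
        refine squeeze_zero (fun n => pow_nonneg (hA0 n) _) (fun n => ?_) h3
        rw [le_inv_mul_iff₀ hc]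
        exact hstep n
      have h3 := hsq.rpow_const (p := ((m + 2 : ℕ) : ℝ)⁻¹) (Or.inr (by positivity))
      have hp : (((m + 2 : ℕ) : ℝ)⁻¹) ≠ 0 := by positivity
      rw [Real.zero_rpow hp] at h3
      have e : (fun n => (A n ^ (m + 2)) ^ (((m + 2 : ℕ) : ℝ)⁻¹)) = A := by
        funext n
        exact Real.pow_rpow_inv_natCast (hA0 n) (by omega)
      rwa [e] at h3
  have hlim3 : Tendsto (fun n => Real.sqrt ((q : ℝ) / 4 * A n)) atTop (𝓝 0) := by
    simpa using (hlim2.const_mul ((q : ℝ) / 4)).sqrt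
  refine squeeze_zero (fun n => ?_) (fun n => ?_) hlim3
  · rw [advantage_binary]
    exact advTree_nonneg hch n _
  · rw [advantage_binary]
    exact Real.le_sqrt_of_sq_le (advTree_sq_le hch n _)

end

end Vale.Agent.Lib.P154Q
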