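import Vale.Agent.Lib.P154Q.Main

/-!
# Averaging over the Galton-Watson tree
-/

open Finset Filter Topology

namespace Vale.Agent.Lib.P154Q

open Vale.Agent.Lib.P154GW

noncomputable section

set_option linter.unusedSectionVars false

variable {π : ℕ → ℝ} {lam : ℝ}

lemma treeProb_succ (π : ℕ → ℝ) (n k : ℕ) (T : Fin k → Tr n) :
    treeProb π (n + 1) ⟨k, T⟩ = π k * ∏ c, treeProb π n (T c) := rfl

lemma treeProb_nonneg (hπ0 : ∀ k, 0 ≤ π k) : ∀ (n : ℕ) (T : Tr n), 0 ≤ treeProb π n T := by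
  intro n
  induction n with
  | zero => intro T; show (0 : ℝ) ≤ 1; norm_num
  | succ n ih =>
    rintro ⟨k, T⟩
    rw [treeProb_succ]
    exact mul_nonneg (hπ0 k) (Finset.prod_nonneg fun c _ => ih _)

lemma hasSum_treeProb (hπ0 : ∀ k, 0 ≤ π k) (hπ : HasSum π 1) :
    ∀ n, HasSum (treeProb π n) 1 := by
  intro n
  induction n with
  | zero =>
    exact hasSum_unique (treeProb π 0)
  | succ n ih =>
    refine hasSum_sigma_nonneg (g := fun k => π k) (fun x => treeProb_nonneg hπ0 (n + 1) x) ?_ hπ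
    intro k
    have h := (hasSum_prod_fin k (fun _ => treeProb π n) (fun _ => 1)
      (fun _ x => treeProb_nonneg hπ0 n x) (fun _ => ih)).mul_left (π k)
    simpa [treeProb_succ] using h

/-- Marginalisation over countable products, one coordinate. -/
lemma hasSum_marginal {Ω : Type*} {m h : Ω → ℝ} {E : ℝ} (hm0 : ∀ x, 0 ≤ m x) (hm : HasSum m 1)
    (hh0 : ∀ x, 0 ≤ h x) (hE : HasSum (fun x => m x * h x) E) (k : ℕ) (c₀ : Fin k) :
    HasSum (fun T : Fin k → Ω => (∏ c, m (T c)) * h (T c₀)) E := by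
  classical
  have key := hasSum_prod_fin k (fun c x => m x * (if c = c₀ then h x else 1))
    (fun c => if c = c₀ then E else 1)
    (fun c x => mul_nonneg (hm0 x) (by split_ifs; exacts [hh0 x, zero_le_one]))
    (fun c => by
      by_cases hc : c = c₀
      · simpa [hc] using hE
      · simpa [hc] using hm)
  have e1 : (∏ c, (if c = c₀ then E else 1)) = E := by
    rw [Finset.prod_ite_eq' Finset.univ c₀ (fun _ => E)]
    simp
  rw [e1] at key
  have e2 : (fun T : Fin k → Ω => (∏ c, m (T c)) * h (T c₀))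
      = fun T => ∏ c, (m (T c) * (if c = c₀ then h (T c) else 1)) := by
    funext T
    rw [Finset.prod_mul_distrib, Finset.prod_ite_eq' Finset.univ c₀ (fun c => h (T c))]
    simp
  rw [e2]
  exact key

/-- Marginalisation over countable products, two coordinates. -/
lemma hasSum_marginal2 {Ω : Type*} {m h h' : Ω → ℝ} {E E' : ℝ} (hm0 : ∀ x, 0 ≤ m x) (hm : HasSum m 1)
    (hh0 : ∀ x, 0 ≤ h x) (hh1 : ∀ x, 0 ≤ h' x) (hE : HasSum (fun x => m x * h x) E)
    (hE' : HasSum (fun x => m x * h' x) E') (k : ℕ) {c₀ c₁ : Fin k} (hne : c₀ ≠ c₁) :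
    HasSum (fun T : Fin k → Ω => (∏ c, m (T c)) * (h (T c₀) * h' (T c₁))) (E * E') := by
  classical
  have key := hasSum_prod_fin k
    (fun c x => m x * ((if c = c₀ then h x else 1) * (if c = c₁ then h' x else 1)))
    (fun c => (if c = c₀ then E else 1) * (if c = c₁ then E' else 1))
    (fun c x => mul_nonneg (hm0 x) (mul_nonneg (by split_ifs; exacts [hh0 x, zero_le_one])
      (by split_ifs; exacts [hh1 x, zero_le_one])))
    (fun c => by
      by_cases hc : c = c₀
      · have hc1 : c ≠ c₁ := by rw [hc]; exact hne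
        simpa [hc, hne] using hE
      · by_cases hc1 : c = c₁
        · have hc0 : c₁ ≠ c₀ := hne.symm
          simpa [hc1, hc0] using hE'
        · simpa [hc, hc1] using hm)
  have e1 : (∏ c, ((if c = c₀ then E else 1) * (if c = c₁ then E' else 1))) = E * E' := by
    rw [Finset.prod_mul_distrib, Finset.prod_ite_eq' Finset.univ c₀ (fun _ => E),
      Finset.prod_ite_eq' Finset.univ c₁ (fun _ => E')]
    simp
  rw [e1] at key
  have e2 : (fun T : Fin k → Ω => (∏ c, m (T c)) * (h (T c₀) * h' (T c₁)))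
      = fun T => ∏ c, (m (T c) * ((if c = c₀ then h (T c) else 1) * (if c = c₁ then h' (T c) else 1))) := by
    funext T
    rw [Finset.prod_mul_distrib, Finset.prod_mul_distrib,
      Finset.prod_ite_eq' Finset.univ c₀ (fun c => h (T c)),
      Finset.prod_ite_eq' Finset.univ c₁ (fun c => h' (T c))]
    simp
  rw [e2]
  exact key

variable {q : ℕ} [NeZero q]

section level

variable {ψ u u' : V q → ℝ} {C τ d : ℝ}

/-- Summability of the terms. -/
lemma summable_terms (hπ0 : ∀ k, 0 ≤ π k) (hπ : HasSum π 1) {χ : V q → ℝ} (hch : ∀ i j, 0 ≤ chan q lam i j)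
    (hχ0 : ∀ c, InSx 1 c → 0 ≤ χ c) (hχ : ∀ c, InSx 1 c → χ c ≤ C) (n : ℕ) :
    Summable (fun T => treeProb π n T * Sp (q := q) lam χ n T) := by
  have h := (hasSum_treeProb hπ0 hπ n).summable.mul_right C
  refine Summable.of_nonneg_of_le (fun T => ?_) (fun T => ?_) h
  · exact mul_nonneg (treeProb_nonneg hπ0 n T) (Sp_nonneg hch hχ0 n T)
  · exact mul_le_mul_of_nonneg_left (Sp_le hch hχ n T) (treeProb_nonneg hπ0 n T)

/-- The recursion for the expected potential over the Galton-Watson tree, from the recursion on a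
fixed tree. -/
theorem level_rec_of (hπ0 : ∀ k, 0 ≤ π k) (hπ : HasSum π 1) (hmean : HasSum (fun k : ℕ => (k : ℝ) * π k) d)
    (hch : ∀ i j, 0 ≤ chan q lam i j)
    (hψ0 : ∀ c, InSx 1 c → 0 ≤ ψ c) (hbd : ∀ c, InSx 1 c → ψ c ≤ C)
    {C₁ C₂ : ℝ} (hu0 : ∀ c, InSx 1 c → 0 ≤ u c) (hu : ∀ c, InSx 1 c → u c ≤ C₁)
    (hu'0 : ∀ c, InSx 1 c → 0 ≤ u' c) (hu' : ∀ c, InSx 1 c → u' c ≤ C₂)
    (k₀ : ℕ)
    (hS1 : ∀ (n k : ℕ) (T : Fin k → Tr n),
      Sp (q := q) lam ψ (n + 1) ⟨k, T⟩ ≤ lam ^ 2 * ∑ c, Sp (q := q) lam ψ n (T c))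
    (hS2 : ∀ (n : ℕ) (T : Fin (k₀ + 2) → Tr n),
      Sp (q := q) lam ψ (n + 1) ⟨k₀ + 2, T⟩ ≤ lam ^ 2 * ∑ c, Sp (q := q) lam ψ n (T c)
      - τ * (Sp (q := q) lam u n (T (i0 k₀)) * Sp (q := q) lam u' n (T (i1 k₀)))) (n : ℕ) :
    ∑' T, treeProb π (n + 1) T * Sp (q := q) lam ψ (n + 1) T ≤
      d * lam ^ 2 * (∑' T, treeProb π n T * Sp (q := q) lam ψ n T)
        - π (k₀ + 2) * τ * ((∑' T, treeProb π n T * Sp (q := q) lam u n T) *
            (∑' T, treeProb π n T * Sp (q := q) lam u' n T)) := by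
  have hP0 := treeProb_nonneg hπ0 n
  have hP := hasSum_treeProb hπ0 hπ n
  have hS0 := Sp_nonneg (q := q) (lam := lam) hch hψ0 n
  have hSu := Sp_nonneg (q := q) (lam := lam) hch hu0 n
  have hSu' := Sp_nonneg (q := q) (lam := lam) hch hu'0 n
  set E := ∑' T, treeProb π n T * Sp (q := q) lam ψ n T with hE
  set A := ∑' T, treeProb π n T * Sp (q := q) lam u n T with hA
  set A' := ∑' T, treeProb π n T * Sp (q := q) lam u' n T with hA'
  have hEs : HasSum (fun T => treeProb π n T * Sp (q := q) lam ψ n T) E :=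
    (summable_terms hπ0 hπ hch hψ0 hbd n).hasSum
  have hAs : HasSum (fun T => treeProb π n T * Sp (q := q) lam u n T) A :=
    (summable_terms hπ0 hπ hch hu0 hu n).hasSum
  have hAs' : HasSum (fun T => treeProb π n T * Sp (q := q) lam u' n T) A' :=
    (summable_terms hπ0 hπ hch hu'0 hu' n).hasSum
  -- the sum at level n + 1
  have hsum := summable_terms (q := q) (lam := lam) hπ0 hπ hch hψ0 hbd (n + 1)
  have hfull := hsum.hasSum
  -- fibres
  have hfib : ∀ k : ℕ, Summable (fun T : Fin k → Tr n =>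
      treeProb π (n + 1) ⟨k, T⟩ * Sp (q := q) lam ψ (n + 1) ⟨k, T⟩) := by
    intro k
    exact Summable.sigma_factor hsum k
  set G : ℕ → ℝ := fun k => ∑' T : Fin k → Tr n,
      treeProb π (n + 1) ⟨k, T⟩ * Sp (q := q) lam ψ (n + 1) ⟨k, T⟩ with hG
  have hGs : ∀ k, HasSum (fun T : Fin k → Tr n =>
      treeProb π (n + 1) ⟨k, T⟩ * Sp (q := q) lam ψ (n + 1) ⟨k, T⟩) (G k) := fun k => (hfib k).hasSum
  have hSigma : HasSum G (∑' T, treeProb π (n + 1) T * Sp (q := q) lam ψ (n + 1) T) :=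
    HasSum.sigma hfull hGs
  -- the comparison for a general number of children
  have hsumc : ∀ k : ℕ, HasSum (fun T : Fin k → Tr n =>
      π k * (lam ^ 2 * ∑ c, (∏ c', treeProb π n (T c')) * Sp (q := q) lam ψ n (T c)))
      (π k * (lam ^ 2 * ((k : ℝ) * E))) := by
    intro k
    have h := hasSum_sum (s := Finset.univ) (fun (c : Fin k) _ =>
      hasSum_marginal hP0 hP hS0 hEs k c)
    have e : ∑ _c : Fin k, E = (k : ℝ) * E := by simp
    rw [e] at h
    exact (h.mul_left (lam ^ 2)).mul_left (π k)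
  have hle1 : ∀ k : ℕ, G k ≤ (k : ℝ) * π k * (lam ^ 2 * E) := by
    intro k
    have h2 := hasSum_le (fun T : Fin k → Tr n => ?_) (hGs k) (hsumc k)
    · calc G k ≤ _ := h2
        _ = _ := by ring
    · rw [treeProb_succ, mul_assoc]
      apply mul_le_mul_of_nonneg_left _ (hπ0 k)
      have h3 := hS1 n k T
      have h4 := mul_le_mul_of_nonneg_left h3
        (Finset.prod_nonneg (s := Finset.univ) fun c _ => hP0 (T c))
      calc _ ≤ _ := h4
        _ = _ := by
          rw [Finset.mul_sum, Finset.mul_sum, Finset.mul_sum]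
          apply Finset.sum_congr rfl
          intro c _
          ring
  have hle2 : G (k₀ + 2) ≤ ((k₀ + 2 : ℕ) : ℝ) * π (k₀ + 2) * (lam ^ 2 * E)
      - π (k₀ + 2) * τ * (A * A') := by
    have hne : i0 k₀ ≠ i1 k₀ := by
      simp [i0, i1]
    have hpair : HasSum (fun T : Fin (k₀ + 2) → Tr n =>
        (∏ c', treeProb π n (T c')) * (Sp (q := q) lam u n (T (i0 k₀)) * Sp (q := q) lam u' n (T (i1 k₀))))
        (A * A') :=
      hasSum_marginal2 hP0 hP hSu hSu' hAs hAs' (k₀ + 2) hne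
    have h5 := ((hsumc (k₀ + 2)).sub (hpair.mul_left (π (k₀ + 2) * τ)))
    have h2 := hasSum_le (fun T : Fin (k₀ + 2) → Tr n => ?_) (hGs (k₀ + 2)) h5
    · calc G (k₀ + 2) ≤ _ := h2
        _ = _ := by ring
    · rw [treeProb_succ]
      have h3 := hS2 n T
      have hPP : 0 ≤ π (k₀ + 2) * ∏ c, treeProb π n (T c) :=
        mul_nonneg (hπ0 _) (Finset.prod_nonneg fun c _ => hP0 (T c))
      have h4 := mul_le_mul_of_nonneg_left h3 hPP
      have e : ∑ c, (∏ c', treeProb π n (T c')) * Sp (q := q) lam ψ n (T c)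
          = (∏ c', treeProb π n (T c')) * ∑ c, Sp (q := q) lam ψ n (T c) := by
        rw [Finset.mul_sum]
      calc _ ≤ _ := h4
        _ = _ := by
          rw [e]
          ring
  -- sum over the number of children
  have hb : HasSum (fun k : ℕ => (k : ℝ) * π k * (lam ^ 2 * E)
      - (if k = k₀ + 2 then π (k₀ + 2) * τ * (A * A') else 0))
      (d * (lam ^ 2 * E) - π (k₀ + 2) * τ * (A * A')) :=
    (hmean.mul_right (lam ^ 2 * E)).sub (hasSum_ite_eq (k₀ + 2) _)
  have hfinal := hasSum_le (fun k => ?_) hSigma hb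
  · calc _ ≤ _ := hfinal
      _ = _ := by ring
  · by_cases hk : k = k₀ + 2
    · subst hk
      simp only [if_true]
      exact hle2
    · simp only [hk, if_false, sub_zero]
      exact hle1 k

end level

section final

lemma marg_eq (n : ℕ) (T : Tr n) (ω : Leaves q n T) : marg q lam n T ω = MM (xT lam n T ω) := rfl

lemma advTree_eq (n : ℕ) (T : Tr n) : advTree q lam n T = ∑ ω : Leaves q n T, MM (xT lam n T ω) *
    ((1 / 2) * ∑ i, |cen (xT lam n T ω) i|) := rfl

/-- Jensen for the square over a finite type. -/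
lemma sq_sum_mul_le {Ω : Type*} [Fintype Ω] (m : Ω → ℝ) (hm0 : ∀ x, 0 ≤ m x)
    (hm : ∑ x, m x = 1) (h : Ω → ℝ) :
    (∑ x, m x * h x) ^ 2 ≤ ∑ x, m x * h x ^ 2 := by
  set a := ∑ x, m x * h x with ha
  have key : ∀ x, m x * (2 * a * h x - a ^ 2) ≤ m x * h x ^ 2 := by
    intro x
    apply mul_le_mul_of_nonneg_left _ (hm0 x)
    nlinarith [sq_nonneg (h x - a)]
  have h2 := Finset.sum_le_sum (fun x (_ : x ∈ Finset.univ) => key x)
  have h3 : ∀ b : ℝ, ∑ x, m x * (2 * b * h x - b ^ 2)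
      = 2 * b * (∑ x, m x * h x) - b ^ 2 * ∑ x, m x := by
    intro b
    rw [Finset.mul_sum, Finset.mul_sum, ← Finset.sum_sub_distrib]
    apply Finset.sum_congr rfl
    intro x _
    ring
  rw [h3, hm, ← ha] at h2
  nlinarith

lemma abs_bound (c : V q) : ((1 / 2) * ∑ i, |c i|) ^ 2 ≤ (q : ℝ) / 4 * p2 c := by
  have h := sq_sum_le_card_mul_sum_sq (s := (Finset.univ : Finset (Fin q))) (f := fun i => |c i|)
  simp only [sq_abs, Finset.card_univ, Fintype.card_fin] at h
  have e : p2 c = ∑ i, c i ^ 2 := rfl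
  rw [e, mul_pow]
  nlinarith

lemma advTree_sq_le (hch : ∀ i j, 0 ≤ chan q lam i j) (n : ℕ) (T : Tr n) :
    advTree q lam n T ^ 2 ≤ (q : ℝ) / 4 * Sp (q := q) lam p2 n T := by
  rw [advTree_eq]
  refine (sq_sum_mul_le _ (fun ω => MM_nonneg (xT_nn hch n T ω)) (sum_xT_mass n T) _).trans ?_
  unfold Sp
  rw [Finset.mul_sum]
  apply Finset.sum_le_sum
  intro ω _
  have := mul_le_mul_of_nonneg_left (abs_bound (cen (xT lam n T ω))) (MM_nonneg (xT_nn hch n T ω))
  calc _ ≤ _ := this
    _ = _ := by simp only [GG]; ring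

lemma advTree_nonneg (hch : ∀ i j, 0 ≤ chan q lam i j) (n : ℕ) (T : Tr n) : 0 ≤ advTree q lam n T := by
  rw [advTree_eq]
  exact Finset.sum_nonneg fun ω _ => mul_nonneg (MM_nonneg (xT_nn hch n T ω)) (by positivity)

/-- The advantage terms are summable and their sum is controlled by the second moment. -/
lemma advantage_bounds (hπ0 : ∀ k, 0 ≤ π k) (hπ : HasSum π 1) (hch : ∀ i j, 0 ≤ chan q lam i j) (n : ℕ) :
    Summable (fun T => treeProb π n T * advTree q lam n T) ∧
      advantage π q lam n ^ 2 ≤ (q : ℝ) / 4 * ∑' T, treeProb π n T * Sp (q := q) lam p2 n T := by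
  have hq : (0 : ℝ) < q := q_pos
  have hP0 := treeProb_nonneg hπ0 n
  have hP := hasSum_treeProb hπ0 hπ n
  have hA := (summable_terms (C := (q : ℝ)) hπ0 hπ hch (fun c _ => p2_nonneg c) (fun c hc => p2_le hc) n).hasSum
  have hadv : ∀ T, advTree q lam n T ≤ 1 + (q : ℝ) / 4 * q := by
    intro T
    have h2 := advTree_sq_le hch n T
    have h3 := Sp_le (C := (q : ℝ)) hch (fun c hc => p2_le hc) n T
    have h4 := mul_le_mul_of_nonneg_left h3 (by positivity : (0 : ℝ) ≤ (q : ℝ) / 4)
    nlinarith [advTree_nonneg hch n T, sq_nonneg (advTree q lam n T - 1)]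
  have hs : Summable (fun T => treeProb π n T * advTree q lam n T) := by
    refine Summable.of_nonneg_of_le (fun T => ?_) (fun T => ?_) (hP.summable.mul_right (1 + (q : ℝ) / 4 * q))
    · exact mul_nonneg (hP0 T) (advTree_nonneg hch n T)
    · exact mul_le_mul_of_nonneg_left (hadv T) (hP0 T)
  refine ⟨hs, ?_⟩
  set a := advantage π q lam n with ha
  have has : HasSum (fun T => treeProb π n T * advTree q lam n T) a := hs.hasSum
  have h2 := ((has.mul_left (2 * a)).sub (hP.mul_right (a ^ 2)))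
  have h3 := hasSum_le (fun T => ?_) h2 (hA.mul_left ((q : ℝ) / 4))
  · nlinarith
  · have h4 := advTree_sq_le hch n T
    have h5 : treeProb π n T * (2 * a * advTree q lam n T - a ^ 2)
        ≤ treeProb π n T * ((q : ℝ) / 4 * Sp (q := q) lam p2 n T) :=
      mul_le_mul_of_nonneg_left (by nlinarith [sq_nonneg (advTree q lam n T - a)]) (hP0 T)
    calc _ = treeProb π n T * (2 * a * advTree q lam n T - a ^ 2) := by ring
      _ ≤ _ := h5
      _ = _ := by ring

/-- The tangent line inequality for powers. -/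
lemma pow_tangent {a x : ℝ} (ha : 0 ≤ a) (hx : 0 ≤ x) (m : ℕ) :
    a ^ (m + 1) + ((m : ℝ) + 1) * a ^ m * (x - a) ≤ x ^ (m + 1) := by
  induction m with
  | zero => simp
  | succ m ih =>
    have h := mul_le_mul_of_nonneg_left ih hx
    have h2 : 0 ≤ ((m : ℝ) + 1) * a ^ m * (x - a) ^ 2 := by positivity
    have e : x * x ^ (m + 1) = x ^ (m + 1 + 1) := by ring
    rw [e] at h
    push_cast
    have e2 : a ^ (m + 1 + 1) + ((m : ℝ) + 1 + 1) * a ^ (m + 1) * (x - a) + ((m : ℝ) + 1) * a ^ m * (x - a) ^ 2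
        = x * (a ^ (m + 1) + ((m : ℝ) + 1) * a ^ m * (x - a)) := by ring
    linarith

/-- Jensen for a power of the second moment. -/
lemma pow_le_mean (hπ0 : ∀ k, 0 ≤ π k) (hπ : HasSum π 1) (hch : ∀ i j, 0 ≤ chan q lam i j) (n m : ℕ) :
    (∑' T, treeProb π n T * Sp (q := q) lam p2 n T) ^ (m + 1) ≤
      ∑' T, treeProb π n T * Sp (q := q) lam (fun c => p2 c ^ (m + 1)) n T := by
  have hP0 := treeProb_nonneg hπ0 n
  have hP := hasSum_treeProb hπ0 hπ n
  have hA := (summable_terms (C := (q : ℝ)) hπ0 hπ hch (fun c _ => p2_nonneg c) (fun c hc => p2_le hc) n).hasSum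
  have hB := (summable_terms (C := (q : ℝ) ^ (m + 1)) hπ0 hπ hch (fun c _ => pow_nonneg (p2_nonneg c) (m + 1))
    (fun c hc => pow_le_pow_left₀ (p2_nonneg c) (p2_le hc) (m + 1)) n).hasSum
  set a := ∑' T, treeProb π n T * Sp (q := q) lam p2 n T with ha
  have ha0 : 0 ≤ a := tsum_nonneg fun T => mul_nonneg (hP0 T) (Sp_nonneg hch (fun c _ => p2_nonneg c) n T)
  have h2 := (hP.mul_right (a ^ (m + 1))).add (hA.sub (hP.mul_right a) |>.mul_left (((m : ℝ) + 1) * a ^ m))
  have h3 := hasSum_le (fun T => ?_) h2 hB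
  · have e : 1 * a ^ (m + 1) + ((m : ℝ) + 1) * a ^ m * (a - 1 * a) = a ^ (m + 1) := by ring
    rw [e] at h3
    exact h3
  · have key : a ^ (m + 1) + ((m : ℝ) + 1) * a ^ m * (Sp (q := q) lam p2 n T - a) ≤
        Sp (q := q) lam (fun c => p2 c ^ (m + 1)) n T := by
      unfold Sp
      have hm : ∑ ω : Leaves q n T, MM (xT (q := q) lam n T ω) = 1 := sum_xT_mass n T
      have : a ^ (m + 1) + ((m : ℝ) + 1) * a ^ m * (∑ ω, GG p2 (xT (q := q) lam n T ω) - a)
          = ∑ ω : Leaves q n T, MM (xT (q := q) lam n T ω) *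
            (a ^ (m + 1) + ((m : ℝ) + 1) * a ^ m * (p2 (cen (xT (q := q) lam n T ω)) - a)) := by
        have e1 : ∑ ω : Leaves q n T, MM (xT (q := q) lam n T ω) *
            (a ^ (m + 1) + ((m : ℝ) + 1) * a ^ m * (p2 (cen (xT (q := q) lam n T ω)) - a))
            = (a ^ (m + 1) - ((m : ℝ) + 1) * a ^ m * a) * ∑ ω : Leaves q n T, MM (xT (q := q) lam n T ω)
              + ((m : ℝ) + 1) * a ^ m * ∑ ω, GG p2 (xT (q := q) lam n T ω) := by
          rw [Finset.mul_sum, Finset.mul_sum, ← Finset.sum_add_distrib]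
          apply Finset.sum_congr rfl
          intro ω _
          simp only [GG]
          ring
        rw [e1, hm]
        ring
      rw [this]
      apply Finset.sum_le_sum
      intro ω _
      simp only [GG]
      exact mul_le_mul_of_nonneg_left (pow_tangent ha0 (p2_nonneg _) m) (MM_nonneg (xT_nn hch n T ω))
    have := mul_le_mul_of_nonneg_left key (hP0 T)
    calc _ = treeProb π n T * (a ^ (m + 1) + ((m : ℝ) + 1) * a ^ m * (Sp (q := q) lam p2 n T - a)) := by ring
      _ ≤ _ := this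

variable {B : V q → Prop} {ψ Y χ G H v w : V q → ℝ} {f t C K d : ℝ} {m : ℕ}

/-- **Nonreconstruction on Galton-Watson trees**, for `q` colours, from the pointwise data. -/
theorem tendsto_advantage (hπ0 : ∀ k, 0 ≤ π k) (hπ : HasSum π 1)
    (hmean : HasSum (fun k : ℕ => (k : ℝ) * π k) d) (k₀ : ℕ) (hπ2 : 0 < π (k₀ + 2))
    (hD : QData lam B ψ Y χ G H v w f t (m + 1)) (ht : 0 < t)
    (hψ0 : ∀ c, InSx 1 c → 0 ≤ ψ c) (hge : ∀ c, InSx 1 c → p2 c ≤ K * ψ c)
    (hbd : ∀ c, InSx 1 c → ψ c ≤ C) (hd : d * lam ^ 2 ≤ 1) :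
    Tendsto (advantage π q lam) atTop (𝓝 0) := by
  have hch := hD.hch
  have hp20 : ∀ c : V q, InSx 1 c → 0 ≤ p2 c := fun c _ => p2_nonneg c
  have hp2bd : ∀ c : V q, InSx 1 c → p2 c ≤ q := fun c hc => p2_le hc
  have hq : (0 : ℝ) < q := q_pos
  set E : ℕ → ℝ := fun n => ∑' T, treeProb π n T * Sp (q := q) lam ψ n T with hE
  set A : ℕ → ℝ := fun n => ∑' T, treeProb π n T * Sp (q := q) lam p2 n T with hA
  set A' : ℕ → ℝ := fun n => ∑' T, treeProb π n T * Sp (q := q) lam (fun c => p2 c ^ (m + 1)) n T with hA'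
  have hE0 : ∀ n, 0 ≤ E n := fun n =>
    tsum_nonneg fun T => mul_nonneg (treeProb_nonneg hπ0 n T) (Sp_nonneg hch hψ0 n T)
  have hA0 : ∀ n, 0 ≤ A n := fun n =>
    tsum_nonneg fun T => mul_nonneg (treeProb_nonneg hπ0 n T) (Sp_nonneg hch hp20 n T)
  have hAA' : ∀ n, A n ^ (m + 1) ≤ A' n := fun n => pow_le_mean hπ0 hπ hch n m
  have hrec : ∀ n, E (n + 1) ≤ d * lam ^ 2 * E n
      - π (k₀ + 2) * (t * lam ^ (2 + 2 * (m + 1))) * (A n * A' n) := fun n =>
    level_rec_of hπ0 hπ hmean hch hψ0 hbd hp20 hp2bd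
      (fun c _ => pow_nonneg (p2_nonneg c) (m + 1))
      (fun c hc => pow_le_pow_left₀ (p2_nonneg c) (p2_le hc) (m + 1)) k₀
      (Sp_succ_le hD) (fun n T => Sp_margin hD n k₀ T) n
  have hlim2 : Tendsto A atTop (𝓝 0) := by
    rcases eq_or_ne lam 0 with hl0 | hlne
    · -- the trivial channel
      have hK : ∀ n, A n ≤ max K 0 * E n := by
        intro n
        have hK0 : 0 ≤ max K 0 := le_max_right _ _
        have h1 := (summable_terms hπ0 hπ hch hp20 hp2bd n).hasSum
        have h2 := ((summable_terms hπ0 hπ hch hψ0 hbd n).hasSum).mul_left (max K 0)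
        refine hasSum_le (fun T => ?_) h1 h2
        have h3 : Sp (q := q) lam p2 n T ≤ max K 0 * Sp (q := q) lam ψ n T := by
          unfold Sp
          rw [Finset.mul_sum]
          apply Finset.sum_le_sum
          intro ω _
          rcases (MM_nonneg (xT_nn hch n T ω)).eq_or_lt with h | h
          · simp [GG, ← h]
          · simp only [GG]
            have hc := cen_inSx (xT_nn hch n T ω) h
            have h4 : p2 (cen (xT (q := q) lam n T ω)) ≤ max K 0 * ψ (cen (xT (q := q) lam n T ω)) :=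
              (hge _ hc).trans (mul_le_mul_of_nonneg_right (le_max_left _ _) (hψ0 _ hc))
            have := mul_le_mul_of_nonneg_left h4 h.le
            calc _ ≤ _ := this
              _ = _ := by ring
        have := mul_le_mul_of_nonneg_left h3 (treeProb_nonneg hπ0 n T)
        calc _ ≤ _ := this
          _ = _ := by ring
      have hz : ∀ n, A (n + 1) = 0 := by
        intro n
        have h3 := hrec n
        rw [hl0] at h3
        have e : (0 : ℝ) ^ (2 + 2 * (m + 1)) = 0 := by simp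
        rw [e] at h3
        simp only [mul_zero, ne_eq, OfNat.ofNat_ne_zero, not_false_eq_true, zero_pow, zero_mul, sub_zero] at h3
        have h4 := hE0 (n + 1)
        have h5 : E (n + 1) = 0 := le_antisymm h3 h4
        have h6 := hK (n + 1)
        rw [h5, mul_zero] at h6
        exact le_antisymm h6 (hA0 _)
      rw [← tendsto_add_atTop_iff_nat 1]
      simp only [hz]
      exact tendsto_const_nhds
    · have hl2 : 0 < lam ^ 2 := by positivity
      have hlp : 0 < lam ^ (2 + 2 * (m + 1)) := by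
        rw [pow_add, pow_mul]
        positivity
      have hc : 0 < π (k₀ + 2) * (t * lam ^ (2 + 2 * (m + 1))) := by positivity
      set c := π (k₀ + 2) * (t * lam ^ (2 + 2 * (m + 1))) with hcdef
      have hstep : ∀ n, c * A n ^ (m + 2) ≤ E n - E (n + 1) := by
        intro n
        have h3 := hrec n
        have h4 := mul_le_mul_of_nonneg_right hd (hE0 n)
        have h5 := mul_le_mul_of_nonneg_left (hAA' n) (hA0 n)
        have h6 := mul_le_mul_of_nonneg_left h5 hc.le
        have e : A n * A n ^ (m + 1) = A n ^ (m + 2) := by ring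
        rw [e] at h6
        linarith
      have hanti : Antitone E := by
        apply antitone_nat_of_succ_le
        intro n
        have h3 := hstep n
        have h5 : 0 ≤ c * A n ^ (m + 2) := mul_nonneg hc.le (pow_nonneg (hA0 n) _)
        linarith
      have hbdd : BddBelow (Set.range E) := ⟨0, by rintro _ ⟨n, rfl⟩; exact hE0 n⟩
      have hlim := tendsto_atTop_ciInf hanti hbdd
      have hdiff : Tendsto (fun n => E n - E (n + 1)) atTop (𝓝 0) := by
        have := hlim.sub (hlim.comp (tendsto_add_atTop_nat 1))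
        simpa using this
      have hsq : Tendsto (fun n => A n ^ (m + 2)) atTop (𝓝 0) := by
        have h3 : Tendsto (fun n => c⁻¹ * (E n - E (n + 1))) atTop (𝓝 0) := by
          have := hdiff.const_mul (c⁻¹)
          rwa [mul_zero] at this
        refine squeeze_zero (fun n => pow_nonneg (hA0 n) _) (fun n => ?_) h3
        rw [le_inv_mul_iff₀ hc]
        exact hstep n
      have h3 := hsq.rpow_const (p := ((m + 2 : ℕ) : ℝ)⁻¹) (Or.inr (by positivity))
      have hp : (((m + 2 : ℕ) : ℝ)⁻¹) ≠ 0 := by positivity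
      rw [Real.zero_rpow hp] at h3
      have e : (fun n => (A n ^ (m + 2)) ^ (((m + 2 : ℕ) : ℝ)⁻¹)) = A := by
        funext n
        exact Real.pow_rpow_inv_natCast (hA0 n) (by omega)
      rwa [e] at h3
  have hlim3 : Tendsto (fun n => Real.sqrt ((q : ℝ) / 4 * A n)) atTop (𝓝 0) := by
    simpa using (hlim2.const_mul ((q : ℝ) / 4)).sqrt
  refine squeeze_zero (fun n => ?_) (fun n => ?_) hlim3
  · exact tsum_nonneg fun T => mul_nonneg (treeProb_nonneg hπ0 n T) (advTree_nonneg hch n T)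
  · exact Real.le_sqrt_of_sq_le (advantage_bounds hπ0 hπ hch n).2

end final

end

end Vale.Agent.Lib.P154Q
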