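import Vale.Agent.Lib.P154Q.Tree

/-!
# Nonreconstruction on Galton-Watson trees from a merge inequality with an invariant

`QData` collects the pointwise inequalities.  The function `χ` has nonnegative expectation on every fixed
tree, by the inequality `inv`.  So the merge inequality `merge` may be weakened by Lagrange terms.
-/

open Finset Filter Topology

namespace Vale.Agent.Lib.P154Q

open Vale.Agent.Lib.P154GW

noncomputable section

set_option linter.unusedSectionVars false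

variable {q : ℕ} [NeZero q]

/-- The pointwise data of the argument.  Here `B` is a set containing the scaled simplex `lam • InSx 1`. -/
structure QData (lam : ℝ) (B : V q → Prop) (ψ Y χ G H v w : V q → ℝ) (f t : ℝ) (m : ℕ) : Prop where
  /-- The merge inequality with Lagrange terms. -/
  merge : ∀ a b, InSx 1 a → B b →
    KK ψ a b ≤ ψ a + Y b - G b * χ a - H a * χ b - t * (p2 a * p2 b ^ m)
  /-- The invariant. -/
  inv : ∀ a b, InSx 1 a → B b → v b * χ a + w a * χ b ≤ KK χ a b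
  G0 : ∀ b, B b → 0 ≤ G b
  H0 : ∀ a, InSx 1 a → 0 ≤ H a
  v0 : ∀ b, B b → 0 ≤ v b
  w0 : ∀ a, InSx 1 a → 0 ≤ w a
  t0 : 0 ≤ t
  f0 : 0 ≤ f
  /-- The scaled simplex is in `B`. -/
  scaleB : ∀ c, InSx 1 c → B (lam • c)
  /-- The channel has nonnegative entries. -/
  hch : ∀ i j, 0 ≤ chan q lam i j
  /-- The invariant on the scaled simplex. -/
  chi_scale : ∀ c, InSx 1 c → f * χ c ≤ χ (lam • c)
  chi_zero : 0 ≤ χ 0
  chi_vertex : ∀ τ : Fin q, 0 ≤ χ (vertex τ)
  /-- The value of the potential on the scaled simplex. -/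
  Y_scale : ∀ c, InSx 1 c → Y (lam • c) ≤ lam ^ 2 * ψ c
  psi_le_Y : ∀ b, B b → ψ b ≤ Y b
  psi_zero : ψ 0 ≤ 0

variable {lam : ℝ} {B : V q → Prop} {ψ Y χ G H v w : V q → ℝ} {f t : ℝ} {m : ℕ}

section families

variable {A Ω : Type} [Fintype A] [Fintype Ω]

/-- A sum of masses times a function, under a pointwise inequality on the support. -/
lemma sum_le_of_pt {x : A → V q} {y : Ω → V q} (hx : ∀ η, NN (x η)) (hy : ∀ ξ, NN (y ξ))
    {D E : V q → Prop} (hxd : ∀ η, 0 < MM (x η) → D (cen (x η))) (hyd : ∀ ξ, 0 < MM (y ξ) → E (cen (y ξ)))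
    {u u' : V q → V q → ℝ} (h : ∀ a b, D a → E b → u a b ≤ u' a b) :
    ∑ η, ∑ ξ, MM (x η) * MM (y ξ) * u (cen (x η)) (cen (y ξ)) ≤
      ∑ η, ∑ ξ, MM (x η) * MM (y ξ) * u' (cen (x η)) (cen (y ξ)) := by
  apply Finset.sum_le_sum
  intro η _
  apply Finset.sum_le_sum
  intro ξ _
  rcases (MM_nonneg (hx η)).eq_or_lt with h0 | h1
  · simp [← h0]
  rcases (MM_nonneg (hy ξ)).eq_or_lt with h0 | h2
  · simp [← h0]
  exact mul_le_mul_of_nonneg_left (h _ _ (hxd η h1) (hyd ξ h2)) (by positivity)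

/-- One step of the recursion for the invariant. -/
lemma inv_step (hD : QData lam B ψ Y χ G H v w f t m) {x : A → V q} {y : Ω → V q} (hy : Fam y)
    (hx : ∀ η, NN (x η)) (hxd : ∀ η, 0 < MM (x η) → InSx 1 (cen (x η)))
    (hyd : ∀ ξ, 0 < MM (y ξ) → B (cen (y ξ)))
    (hpx : 0 ≤ ∑ η, GG χ (x η)) (hpy : 0 ≤ ∑ ξ, GG χ (y ξ)) :
    0 ≤ ∑ η, ∑ ξ, GG χ (mrg (x η) (y ξ)) := by
  rw [fam_KK hy hx]
  have key := sum_le_of_pt hx hy.nn hxd hyd (u := fun a b => v b * χ a + w a * χ b)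
    (u' := KK χ) hD.inv
  have e : ∑ η, ∑ ξ, MM (x η) * MM (y ξ) * (v (cen (y ξ)) * χ (cen (x η)) + w (cen (x η)) * χ (cen (y ξ)))
      = (∑ η, GG χ (x η)) * (∑ ξ, GG v (y ξ)) + (∑ η, GG w (x η)) * (∑ ξ, GG χ (y ξ)) := by
    rw [← sum_product x y χ v, ← sum_product x y w χ, ← Finset.sum_add_distrib]
    apply Finset.sum_congr rfl
    intro η _
    rw [← Finset.sum_add_distrib]
    apply Finset.sum_congr rfl
    intro ξ _
    ring
  rw [e] at key
  have hv : 0 ≤ ∑ ξ, GG v (y ξ) :=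
    Finset.sum_nonneg fun ξ _ => GG_nonneg_on (hy.nn ξ) (hyd ξ) hD.v0
  have hw : 0 ≤ ∑ η, GG w (x η) :=
    Finset.sum_nonneg fun η _ => GG_nonneg_on (hx η) (hxd η) hD.w0
  have h1 := mul_nonneg hpx hv
  have h2 := mul_nonneg hw hpy
  linarith

/-- One step of the recursion for the potential. -/
lemma psi_step (hD : QData lam B ψ Y χ G H v w f t m) {x : A → V q} {y : Ω → V q} (hy : Fam y)
    (hx : ∀ η, NN (x η)) (hxd : ∀ η, 0 < MM (x η) → InSx 1 (cen (x η)))
    (hyd : ∀ ξ, 0 < MM (y ξ) → B (cen (y ξ)))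
    (hpx : 0 ≤ ∑ η, GG χ (x η)) (hpy : 0 ≤ ∑ ξ, GG χ (y ξ)) (hmx : ∑ η, MM (x η) = 1) :
    ∑ η, ∑ ξ, GG ψ (mrg (x η) (y ξ)) ≤ ∑ η, GG ψ (x η) + ∑ ξ, GG Y (y ξ)
      - t * ((∑ η, GG p2 (x η)) * ∑ ξ, GG (fun c => p2 c ^ m) (y ξ)) := by
  rw [fam_KK hy hx]
  have key := sum_le_of_pt hx hy.nn hxd hyd (u := KK ψ)
    (u' := fun a b => ψ a + Y b - G b * χ a - H a * χ b - t * (p2 a * p2 b ^ m)) hD.merge
  have e1 : ∑ η, GG ψ (x η) = ∑ η, ∑ ξ, MM (x η) * MM (y ξ) * (ψ (cen (x η)) * 1) := by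
    apply Finset.sum_congr rfl
    intro η _
    have : ∑ ξ, MM (x η) * MM (y ξ) * (ψ (cen (x η)) * 1)
        = GG ψ (x η) * ∑ ξ, MM (y ξ) := by
      rw [Finset.mul_sum]
      apply Finset.sum_congr rfl
      intro ξ _
      simp only [GG]
      ring
    rw [this, hy.mass, mul_one]
  have e2 : ∑ ξ, GG Y (y ξ) = ∑ η, ∑ ξ, MM (x η) * MM (y ξ) * (1 * Y (cen (y ξ))) := by
    rw [Finset.sum_comm]
    apply Finset.sum_congr rfl
    intro ξ _
    have : ∑ η, MM (x η) * MM (y ξ) * (1 * Y (cen (y ξ)))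
        = (∑ η, MM (x η)) * GG Y (y ξ) := by
      rw [Finset.sum_mul]
      apply Finset.sum_congr rfl
      intro η _
      simp only [GG]
      ring
    rw [this, hmx, one_mul]
  have hG := sum_product x y χ G
  have hH := sum_product x y H χ
  have hT := sum_product x y p2 (fun c => p2 c ^ m)
  have hexp : ∑ η, ∑ ξ, MM (x η) * MM (y ξ) * (ψ (cen (x η)) + Y (cen (y ξ)) - G (cen (y ξ)) * χ (cen (x η))
        - H (cen (x η)) * χ (cen (y ξ)) - t * (p2 (cen (x η)) * p2 (cen (y ξ)) ^ m))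
      = ∑ η, GG ψ (x η) + ∑ ξ, GG Y (y ξ) - (∑ η, GG χ (x η)) * (∑ ξ, GG G (y ξ))
        - (∑ η, GG H (x η)) * (∑ ξ, GG χ (y ξ))
        - t * ((∑ η, GG p2 (x η)) * ∑ ξ, GG (fun c => p2 c ^ m) (y ξ)) := by
    rw [e1, e2, ← hG, ← hH, ← hT, Finset.mul_sum, ← Finset.sum_add_distrib, ← Finset.sum_sub_distrib,
      ← Finset.sum_sub_distrib, ← Finset.sum_sub_distrib]
    apply Finset.sum_congr rfl
    intro η _
    rw [Finset.mul_sum, ← Finset.sum_add_distrib, ← Finset.sum_sub_distrib,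
      ← Finset.sum_sub_distrib, ← Finset.sum_sub_distrib]
    apply Finset.sum_congr rfl
    intro ξ _
    ring
  refine (le_trans key (le_of_eq hexp)).trans ?_
  have hGn : 0 ≤ ∑ ξ, GG G (y ξ) :=
    Finset.sum_nonneg fun ξ _ => GG_nonneg_on (hy.nn ξ) (hyd ξ) hD.G0
  have hHn : 0 ≤ ∑ η, GG H (x η) :=
    Finset.sum_nonneg fun η _ => GG_nonneg_on (hx η) (hxd η) hD.H0
  have h1 := mul_nonneg hpx hGn
  have h2 := mul_nonneg hHn hpy
  linarith

end families

lemma GG_p2_nonneg {x : V q} (hx : NN x) : 0 ≤ GG p2 x :=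
  mul_nonneg (MM_nonneg hx) (p2_nonneg _)

lemma GG_p2m_nonneg {x : V q} (hx : NN x) (m : ℕ) : 0 ≤ GG (fun c => p2 c ^ m) x :=
  mul_nonneg (MM_nonneg hx) (pow_nonneg (p2_nonneg _) m)

/-- The recursion along the children of a vertex. -/
theorem merge_all (hD : QData lam B ψ Y χ G H v w f t m) :
    ∀ (k : ℕ) (Ω : Fin k → Type) [∀ c, Fintype (Ω c)] (y : ∀ c, Ω c → V q),
      (∀ c, Fam (y c)) → (∀ c ξ, 0 < MM (y c ξ) → B (cen (y c ξ))) →
      (∀ c, 0 ≤ ∑ ξ, GG χ (y c ξ)) →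
      0 ≤ ∑ ω : (∀ c, Ω c), GG χ (mergeAll y ω) ∧
        ∑ ω : (∀ c, Ω c), GG ψ (mergeAll y ω) ≤ ∑ c, ∑ ξ, GG Y (y c ξ) := by
  intro k
  induction k with
  | zero =>
    intro Ω _ y _ _ _
    simp only [Finset.univ_eq_empty, Finset.sum_empty, Fintype.sum_unique, mergeAll_zero, GG_uni]
    exact ⟨hD.chi_zero, hD.psi_zero⟩
  | succ k ih =>
    intro Ω _ y hy hyd hyp
    rw [sum_snoc, sum_snoc]
    have e : ∀ (η : ∀ c : Fin k, Ω c.castSucc) (a : Ω (Fin.last k)),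
        mergeAll y (Fin.snoc (α := Ω) η a)
          = mrg (mergeAll (Ω := fun c : Fin k => Ω c.castSucc) (fun c => y c.castSucc) η)
              (y (Fin.last k) a) := by
      intro η a
      rw [mergeAll_succ]
      simp only [Fin.snoc_castSucc, Fin.snoc_last]
    simp only [e]
    have hnn : ∀ (c : Fin k) ξ, NN (y c.castSucc ξ) := fun c ξ => (hy c.castSucc).nn ξ
    obtain ⟨ih1, ih2⟩ := ih (fun c : Fin k => Ω c.castSucc) (fun c : Fin k => y c.castSucc)
      (fun c : Fin k => hy c.castSucc) (fun (c : Fin k) => hyd c.castSucc)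
      (fun (c : Fin k) => hyp c.castSucc)
    have hmass := mergeAll_mass (Ω := fun c : Fin k => Ω c.castSucc) (y := fun c : Fin k => y c.castSucc)
      (fun c : Fin k => hy c.castSucc)
    have hxd := fun η (h : 0 < MM (mergeAll (Ω := fun c : Fin k => Ω c.castSucc)
        (fun c : Fin k => y c.castSucc) η)) => cen_inSx (mergeAll_nn hnn η) h
    refine ⟨inv_step hD (hy (Fin.last k)) (fun η => mergeAll_nn hnn η) hxd (hyd (Fin.last k)) ih1
      (hyp (Fin.last k)), ?_⟩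
    have key := psi_step hD (hy (Fin.last k)) (fun η => mergeAll_nn hnn η) hxd (hyd (Fin.last k)) ih1
      (hyp (Fin.last k)) hmass
    have hm : 0 ≤ t * ((∑ η : (∀ c : Fin k, Ω c.castSucc),
        GG p2 (mergeAll (Ω := fun c : Fin k => Ω c.castSucc) (fun c => y c.castSucc) η)) *
        ∑ ξ, GG (fun c => p2 c ^ m) (y (Fin.last k) ξ)) := by
      apply mul_nonneg hD.t0
      apply mul_nonneg
      · exact Finset.sum_nonneg fun η _ => GG_p2_nonneg (mergeAll_nn hnn η)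
      · exact Finset.sum_nonneg fun ξ _ => GG_p2m_nonneg ((hy (Fin.last k)).nn ξ) m
    rw [Fin.sum_univ_castSucc]
    linarith

/-- The first child. -/
def i0 (k : ℕ) : Fin (k + 2) := ⟨0, by omega⟩

/-- The second child. -/
def i1 (k : ℕ) : Fin (k + 2) := ⟨1, by omega⟩

/-- The merge inequality for at least two children, with margin. -/
theorem merge_margin (hD : QData lam B ψ Y χ G H v w f t m) :
    ∀ (k : ℕ) (Ω : Fin (k + 2) → Type) [∀ c, Fintype (Ω c)] (y : ∀ c, Ω c → V q),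
      (∀ c, Fam (y c)) → (∀ c ξ, 0 < MM (y c ξ) → B (cen (y c ξ))) →
      (∀ c, 0 ≤ ∑ ξ, GG χ (y c ξ)) →
        ∑ ω : (∀ c, Ω c), GG ψ (mergeAll y ω) ≤ ∑ c, ∑ ξ, GG Y (y c ξ)
          - t * ((∑ ξ, GG p2 (y (i0 k) ξ)) * ∑ ξ, GG (fun c => p2 c ^ m) (y (i1 k) ξ)) := by
  intro k
  induction k with
  | zero =>
    intro Ω _ y hy hyd hyp
    have e : ∑ ω : (∀ c, Ω c), GG ψ (mergeAll y ω)
        = ∑ a, ∑ b, GG ψ (mrg (y 0 a) (y 1 b)) := by
      rw [← Equiv.sum_comp (piFinTwoEquiv Ω).symm, Fintype.sum_prod_type]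
      apply Finset.sum_congr rfl
      intro a _
      apply Finset.sum_congr rfl
      intro b _
      congr 1
      funext i
      have hq : (q : ℝ) ≠ 0 := q_ne
      simp only [mergeAll, mrg, Fin.prod_univ_two, piFinTwoEquiv]
      simp
      field_simp
    rw [e]
    have key := psi_step hD (hy 1) (hy 0).nn (fun η h => cen_inSx ((hy 0).nn η) h) (hyd 1) (hyp 0) (hyp 1)
      (hy 0).mass
    have h2 : ∑ ξ, GG ψ (y 0 ξ) ≤ ∑ ξ, GG Y (y 0 ξ) := by
      apply Finset.sum_le_sum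
      intro ξ _
      rcases (MM_nonneg ((hy 0).nn ξ)).eq_or_lt with h0 | h1
      · simp [GG, ← h0]
      · exact mul_le_mul_of_nonneg_left (hD.psi_le_Y _ (hyd 0 ξ h1)) h1.le
    rw [Fin.sum_univ_two]
    have e0 : i0 0 = 0 := rfl
    have e1 : i1 0 = 1 := rfl
    rw [e0, e1]
    linarith
  | succ k ih =>
    intro Ω _ y hy hyd hyp
    rw [sum_snoc]
    have e : ∀ (η : ∀ c : Fin (k + 2), Ω c.castSucc) (a : Ω (Fin.last (k + 2))),
        mergeAll y (Fin.snoc (α := Ω) η a)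
          = mrg (mergeAll (Ω := fun c : Fin (k + 2) => Ω c.castSucc) (fun c => y c.castSucc) η)
              (y (Fin.last (k + 2)) a) := by
      intro η a
      rw [mergeAll_succ]
      simp only [Fin.snoc_castSucc, Fin.snoc_last]
    simp only [e]
    have hnn : ∀ (c : Fin (k + 2)) ξ, NN (y c.castSucc ξ) := fun c ξ => (hy c.castSucc).nn ξ
    have ih2 := ih (fun c : Fin (k + 2) => Ω c.castSucc) (fun c : Fin (k + 2) => y c.castSucc)
      (fun c : Fin (k + 2) => hy c.castSucc) (fun (c : Fin (k + 2)) => hyd c.castSucc)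
      (fun (c : Fin (k + 2)) => hyp c.castSucc)
    obtain ⟨ih1, _⟩ := merge_all hD (k + 2) (fun c : Fin (k + 2) => Ω c.castSucc)
      (fun c : Fin (k + 2) => y c.castSucc)
      (fun c : Fin (k + 2) => hy c.castSucc) (fun (c : Fin (k + 2)) => hyd c.castSucc)
      (fun (c : Fin (k + 2)) => hyp c.castSucc)
    have hmass := mergeAll_mass (Ω := fun c : Fin (k + 2) => Ω c.castSucc)
      (y := fun c : Fin (k + 2) => y c.castSucc) (fun c : Fin (k + 2) => hy c.castSucc)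
    have hxd := fun η (h : 0 < MM (mergeAll (Ω := fun c : Fin (k + 2) => Ω c.castSucc)
        (fun c : Fin (k + 2) => y c.castSucc) η)) => cen_inSx (mergeAll_nn hnn η) h
    have key := psi_step hD (hy (Fin.last (k + 2))) (fun η => mergeAll_nn hnn η) hxd
      (hyd (Fin.last (k + 2))) ih1 (hyp (Fin.last (k + 2))) hmass
    have hm : 0 ≤ t * ((∑ η : (∀ c : Fin (k + 2), Ω c.castSucc),
        GG p2 (mergeAll (Ω := fun c : Fin (k + 2) => Ω c.castSucc) (fun c => y c.castSucc) η)) *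
        ∑ ξ, GG (fun c => p2 c ^ m) (y (Fin.last (k + 2)) ξ)) := by
      apply mul_nonneg hD.t0
      apply mul_nonneg
      · exact Finset.sum_nonneg fun η _ => GG_p2_nonneg (mergeAll_nn hnn η)
      · exact Finset.sum_nonneg fun ξ _ => GG_p2m_nonneg ((hy (Fin.last (k + 2))).nn ξ) m
    rw [Fin.sum_univ_castSucc]
    have e0 : (i0 k).castSucc = i0 (k + 1) := rfl
    have e1 : (i1 k).castSucc = i1 (k + 1) := rfl
    have ih3 : ∑ η : (∀ c : Fin (k + 2), Ω c.castSucc),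
        GG ψ (mergeAll (Ω := fun c : Fin (k + 2) => Ω c.castSucc) (fun c => y c.castSucc) η)
        ≤ ∑ c : Fin (k + 2), ∑ ξ, GG Y (y c.castSucc ξ)
          - t * ((∑ ξ, GG p2 (y (i0 (k + 1)) ξ)) * ∑ ξ, GG (fun c => p2 c ^ m) (y (i1 (k + 1)) ξ)) := ih2
    linarith

section tree

/-- The leaves of the tree. -/
lemma cen_xT_zero (T : Tr 0) (τ : Fin q) : 0 < MM (xT (q := q) lam 0 T τ) ∧
    cen (xT (q := q) lam 0 T τ) = vertex τ := by
  have hq : (0 : ℝ) < q := q_pos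
  have e : xT (q := q) lam 0 T τ = fun i => (1 / (q : ℝ)) * (if i = τ then 1 else 0) := rfl
  have hM : MM (xT (q := q) lam 0 T τ) = 1 / (q : ℝ) := by
    rw [e]
    simp [MM]
  constructor
  · rw [hM]; positivity
  · funext i
    simp only [cen, hM, vertex]
    rw [e]
    by_cases h : i = τ
    · simp [h]
    · simp [h]

/-- **The invariant**: on every fixed tree the expectation of `χ` is nonnegative. -/
theorem Sp_chi_nonneg (hD : QData lam B ψ Y χ G H v w f t m) :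
    ∀ (n : ℕ) (T : Tr n), 0 ≤ Sp (q := q) lam χ n T := by
  intro n
  induction n with
  | zero =>
    intro T
    unfold Sp
    apply Finset.sum_nonneg
    intro τ _
    obtain ⟨h1, h2⟩ := cen_xT_zero (q := q) (lam := lam) T τ
    simp only [GG]
    rw [h2]
    exact mul_nonneg h1.le (hD.chi_vertex τ)
  | succ n ih =>
    rintro ⟨k, T⟩
    rw [Sp_succ]
    exact (merge_all hD k (fun c => Leaves q n (T c))
      (fun c => yT lam n (T c)) (fun c => yT_fam hD.hch n (T c))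
      (fun c ξ h => by
        rw [MM_yT] at h
        rw [cen_yT n (T c) ξ h]
        exact hD.scaleB _ (cen_inSx (xT_nn hD.hch n (T c) ξ) h))
      (fun c => (mul_nonneg hD.f0 (ih _)).trans (le_sum_yT hD.hch hD.chi_scale n (T c)))).1

lemma child_dom (hD : QData lam B ψ Y χ G H v w f t m) (n : ℕ) (T : Tr n) (ξ : Leaves q n T)
    (h : 0 < MM (yT (q := q) lam n T ξ)) : B (cen (yT lam n T ξ)) := by
  rw [MM_yT] at h
  rw [cen_yT n T ξ h]
  exact hD.scaleB _ (cen_inSx (xT_nn hD.hch n T ξ) h)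

lemma child_chi (hD : QData lam B ψ Y χ G H v w f t m) (n : ℕ) (T : Tr n) :
    0 ≤ ∑ ξ, GG χ (yT (q := q) lam n T ξ) :=
  (mul_nonneg hD.f0 (Sp_chi_nonneg hD n T)).trans (le_sum_yT hD.hch hD.chi_scale n T)

/-- The recursion on a fixed tree. -/
lemma Sp_succ_le (hD : QData lam B ψ Y χ G H v w f t m) (n k : ℕ) (T : Fin k → Tr n) :
    Sp (q := q) lam ψ (n + 1) ⟨k, T⟩ ≤ lam ^ 2 * ∑ c, Sp (q := q) lam ψ n (T c) := by
  rw [Sp_succ]
  refine (merge_all hD k (fun c => Leaves q n (T c))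
    (fun c => yT lam n (T c)) (fun c => yT_fam hD.hch n (T c))
    (fun c ξ h => child_dom hD n (T c) ξ h)
    (fun c => child_chi hD n (T c))).2.trans ?_
  rw [Finset.mul_sum]
  exact Finset.sum_le_sum fun c _ => sum_yT_le hD.hch hD.Y_scale n (T c)

/-- The expectation of `p2` on the child message. -/
lemma child_p2 (hch : ∀ i j, 0 ≤ chan q lam i j) (m : ℕ) (n : ℕ) (T : Tr n) :
    lam ^ (2 * m) * Sp (q := q) lam (fun c => p2 c ^ m) n T ≤
      ∑ ξ, GG (fun c => p2 c ^ m) (yT (q := q) lam n T ξ) :=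
  le_sum_yT hch (fun c _ => le_of_eq (by rw [p2_smul, mul_pow, ← pow_mul])) n T

lemma child_p2' (hch : ∀ i j, 0 ≤ chan q lam i j) (n : ℕ) (T : Tr n) :
    lam ^ 2 * Sp (q := q) lam p2 n T ≤ ∑ ξ, GG p2 (yT (q := q) lam n T ξ) :=
  le_sum_yT hch (fun c _ => le_of_eq (by rw [p2_smul])) n T

/-- The recursion on a fixed tree with at least two children. -/
lemma Sp_margin (hD : QData lam B ψ Y χ G H v w f t m) (n k : ℕ) (T : Fin (k + 2) → Tr n) :
    Sp (q := q) lam ψ (n + 1) ⟨k + 2, T⟩ ≤ lam ^ 2 * ∑ c, Sp (q := q) lam ψ n (T c)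
      - t * lam ^ (2 + 2 * m) *
        (Sp (q := q) lam p2 n (T (i0 k)) * Sp (q := q) lam (fun c => p2 c ^ m) n (T (i1 k))) := by
  rw [Sp_succ]
  have key := merge_margin hD k (fun c => Leaves q n (T c))
    (fun c => yT lam n (T c)) (fun c => yT_fam hD.hch n (T c))
    (fun c ξ h => child_dom hD n (T c) ξ h)
    (fun c => child_chi hD n (T c))
  have h2 : ∑ c, ∑ ξ, GG Y (yT (q := q) lam n (T c) ξ) ≤ lam ^ 2 * ∑ c, Sp (q := q) lam ψ n (T c) := by
    rw [Finset.mul_sum]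
    exact Finset.sum_le_sum fun c _ => sum_yT_le hD.hch hD.Y_scale n (T c)
  have h3 := child_p2' hD.hch n (T (i0 k))
  have h4 := child_p2 hD.hch m n (T (i1 k))
  have hS1 : 0 ≤ Sp (q := q) lam p2 n (T (i0 k)) := Sp_nonneg hD.hch (fun c _ => p2_nonneg c) n _
  have hS2 : 0 ≤ Sp (q := q) lam (fun c => p2 c ^ m) n (T (i1 k)) :=
    Sp_nonneg hD.hch (fun c _ => pow_nonneg (p2_nonneg c) m) n _
  have h5 : (lam ^ 2 * Sp (q := q) lam p2 n (T (i0 k))) * (lam ^ (2 * m) * Sp (q := q) lam (fun c => p2 c ^ m) n (T (i1 k)))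
      ≤ (∑ ξ, GG p2 (yT (q := q) lam n (T (i0 k)) ξ)) * ∑ ξ, GG (fun c => p2 c ^ m) (yT (q := q) lam n (T (i1 k)) ξ) := by
    apply mul_le_mul h3 h4
    · have : 0 ≤ lam ^ (2 * m) := by
        rw [pow_mul]; positivity
      exact mul_nonneg this hS2
    · exact Finset.sum_nonneg fun ξ _ => GG_p2_nonneg (yT_nn hD.hch n _ ξ)
  have h6 := mul_le_mul_of_nonneg_left h5 hD.t0
  have e : t * ((lam ^ 2 * Sp (q := q) lam p2 n (T (i0 k))) * (lam ^ (2 * m) * Sp (q := q) lam (fun c => p2 c ^ m) n (T (i1 k))))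
      = t * lam ^ (2 + 2 * m) * (Sp (q := q) lam p2 n (T (i0 k)) * Sp (q := q) lam (fun c => p2 c ^ m) n (T (i1 k))) := by
    rw [pow_add]
    ring
  rw [e] at h6
  linarith

end tree

end

end Vale.Agent.Lib.P154Q
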