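import Vale.Agent.Lib.P154GW.Defs
import Vale.Agent.Lib.P154GW.Sums

/-!
# Messages on a fixed tree, for `q` colours

Unnormalised messages are vectors `x : Fin q → ℝ`.  Their mass is `MM x`, their centred normalisation is
`cen x`.  Merging two messages is the coordinatewise product `mrg`.  The operator `KK` is the average over
all rearrangements of the colours of one of the two messages of `N * f (merged)`, where `N` is the
normalising factor.
-/

open Finset

namespace Vale.Agent.Lib.P154Q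

open Vale.Agent.Lib.P154GW

/-- Vectors indexed by the colours. -/
abbrev V (q : ℕ) := Fin q → ℝ

noncomputable section

set_option linter.unusedSectionVars false

variable {q : ℕ}

/-- The mass of a message. -/
def MM (x : V q) : ℝ := ∑ i, x i

/-- The centred normalisation. -/
def cen (x : V q) : V q := fun i => x i / MM x - 1 / (q : ℝ)

/-- The homogeneous extension of a function of the centred normalisation. -/
def GG (χ : V q → ℝ) (x : V q) : ℝ := MM x * χ (cen x)

/-- Merging two messages. -/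
def mrg (x y : V q) : V q := fun i => (q : ℝ) * (x i * y i)

/-- Nonnegative messages. -/
def NN (x : V q) : Prop := ∀ i, 0 ≤ x i

/-- Scalar product. -/
def sc (a b : V q) : ℝ := ∑ i, a i * b i

/-- The second power sum. -/
def p2 (a : V q) : ℝ := ∑ i, a i ^ 2

/-- The normalising factor of a merge of centred vectors. -/
def Nf (a b : V q) : ℝ := 1 + (q : ℝ) * sc a b

/-- The merge of centred vectors. -/
def wF (a b : V q) : V q :=
  fun i => (q : ℝ) * ((1 / (q : ℝ) + a i) * (1 / (q : ℝ) + b i)) / Nf a b - 1 / (q : ℝ)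

/-- The centred simplex, scaled by `l`. -/
def InSx (l : ℝ) (c : V q) : Prop := ∑ i, c i = 0 ∧ ∀ i, -l / (q : ℝ) ≤ c i

/-- The average over the rearrangements of the second vector. -/
def KK (f : V q → ℝ) (a b : V q) : ℝ :=
  (1 / (q.factorial : ℝ)) * ∑ σ : Equiv.Perm (Fin q), Nf a (b ∘ σ) * f (wF a (b ∘ σ))

/-- The centred vertices of the simplex. -/
def vertex (τ : Fin q) : V q := fun i => (if i = τ then 1 else 0) - 1 / (q : ℝ)

variable [NeZero q]

lemma q_ne : (q : ℝ) ≠ 0 := Nat.cast_ne_zero.2 (NeZero.ne q)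

lemma q_pos : (0 : ℝ) < q := by
  have := NeZero.pos q
  exact_mod_cast this

lemma MM_nonneg {x : V q} (hx : NN x) : 0 ≤ MM x := Finset.sum_nonneg fun i _ => hx i

lemma MM_comp (x : V q) (σ : Equiv.Perm (Fin q)) : MM (x ∘ σ) = MM x :=
  Equiv.sum_comp σ x

lemma cen_comp (x : V q) (σ : Equiv.Perm (Fin q)) : cen (x ∘ σ) = cen x ∘ σ := by
  funext i
  simp only [cen, MM_comp, Function.comp]

lemma NN_comp {x : V q} (hx : NN x) (σ : Equiv.Perm (Fin q)) : NN (x ∘ σ) := fun i => hx (σ i)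

lemma sum_cen {x : V q} (h : 0 < MM x) : ∑ i, cen x i = 0 := by
  have hq : (q : ℝ) ≠ 0 := q_ne
  simp only [cen, Finset.sum_sub_distrib, Finset.sum_const, Finset.card_univ, Fintype.card_fin,
    nsmul_eq_mul]
  rw [← Finset.sum_div]
  have : ∑ i, x i = MM x := rfl
  rw [this, div_self h.ne']
  field_simp
  ring

lemma cen_inSx {x : V q} (hx : NN x) (h : 0 < MM x) : InSx 1 (cen x) := by
  refine ⟨sum_cen h, fun i => ?_⟩
  simp only [cen]
  have : 0 ≤ x i / MM x := div_nonneg (hx i) h.le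
  have e : -(1 : ℝ) / (q : ℝ) = 0 - 1 / (q : ℝ) := by ring
  rw [e]
  linarith

lemma x_eq {x : V q} (h : 0 < MM x) (i : Fin q) : x i = MM x * (1 / (q : ℝ) + cen x i) := by
  simp only [cen]
  field_simp
  ring

/-- The mass of a merge. -/
lemma MM_mrg {x y : V q} (hx : 0 < MM x) (hy : 0 < MM y) :
    MM (mrg x y) = MM x * MM y * Nf (cen x) (cen y) := by
  have hq : (q : ℝ) ≠ 0 := q_ne
  have hc : (Finset.univ : Finset (Fin q)).card = q := by simp
  have e : ∀ i, (q : ℝ) * (x i * y i) =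
      MM x * MM y * ((1 / (q : ℝ)) + (cen x i + cen y i) + (q : ℝ) * (cen x i * cen y i)) := by
    intro i
    rw [x_eq hx i, x_eq hy i]
    simp only [← x_eq hx i, ← x_eq hy i]
    rw [x_eq hx i, x_eq hy i]
    field_simp
    ring
  simp only [MM, mrg] at *
  simp only [e]
  rw [← Finset.mul_sum, Finset.sum_add_distrib, Finset.sum_add_distrib, Finset.sum_const, hc,
    nsmul_eq_mul, ← Finset.mul_sum]
  have h1 : ∑ i, cen x i = 0 := sum_cen hx
  have h2 : ∑ i, cen y i = 0 := sum_cen hy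
  rw [Finset.sum_add_distrib, h1, h2]
  simp only [Nf, sc]
  field_simp
  ring

/-- The merged message is given by `wF`. -/
lemma cen_mrg {x y : V q} (hx : 0 < MM x) (hy : 0 < MM y) (hN : Nf (cen x) (cen y) ≠ 0) :
    cen (mrg x y) = wF (cen x) (cen y) := by
  funext i
  simp only [cen.eq_1 (mrg x y), wF]
  rw [MM_mrg hx hy]
  congr 1
  have e : mrg x y i = (q : ℝ) * (MM x * (1 / (q : ℝ) + cen x i) * (MM y * (1 / (q : ℝ) + cen y i))) := by
    simp only [mrg]
    rw [← x_eq hx i, ← x_eq hy i]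
  rw [e]
  have h1 := hx.ne'
  have h2 := hy.ne'
  field_simp

/-- The value of the homogeneous extension on a merge. -/
lemma GG_mrg (f : V q → ℝ) {x y : V q} (hx : 0 < MM x) (hy : 0 < MM y) :
    GG f (mrg x y) = MM x * MM y * (Nf (cen x) (cen y) * f (wF (cen x) (cen y))) := by
  by_cases hN : Nf (cen x) (cen y) = 0
  · simp [GG, MM_mrg hx hy, hN]
  · simp only [GG]
    rw [MM_mrg hx hy, cen_mrg hx hy hN]
    ring

lemma GG_mrg_zero (f : V q → ℝ) {x y : V q} (hx : NN x) (hy : NN y) (h : MM x = 0 ∨ MM y = 0) :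
    GG f (mrg x y) = 0 := by
  have e : MM (mrg x y) = 0 := by
    rcases h with h | h
    · have h0 : ∀ i, x i = 0 := fun i =>
        (Finset.sum_eq_zero_iff_of_nonneg (fun j _ => hx j)).1 h i (Finset.mem_univ i)
      simp [MM, mrg, h0]
    · have h0 : ∀ i, y i = 0 := fun i =>
        (Finset.sum_eq_zero_iff_of_nonneg (fun j _ => hy j)).1 h i (Finset.mem_univ i)
      simp [MM, mrg, h0]
  simp [GG, e]

/-- The average of a merge over all rearrangements of the colours. -/
lemma avg_GG_mrg (f : V q → ℝ) {x y : V q} (hx : NN x) (hy : NN y) :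
    (1 / (q.factorial : ℝ)) * ∑ σ : Equiv.Perm (Fin q), GG f (mrg x (y ∘ σ)) =
      MM x * MM y * KK f (cen x) (cen y) := by
  rcases (MM_nonneg hx).eq_or_lt with h0 | hxp
  · have : ∀ σ : Equiv.Perm (Fin q), GG f (mrg x (y ∘ σ)) = 0 := fun σ =>
      GG_mrg_zero f hx (NN_comp hy σ) (Or.inl h0.symm)
    simp [this, ← h0]
  rcases (MM_nonneg hy).eq_or_lt with h0 | hyp
  · have : ∀ σ : Equiv.Perm (Fin q), GG f (mrg x (y ∘ σ)) = 0 := fun σ =>
      GG_mrg_zero f hx (NN_comp hy σ) (Or.inr (by rw [MM_comp]; exact h0.symm))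
    simp [this, ← h0]
  have : ∀ σ : Equiv.Perm (Fin q), GG f (mrg x (y ∘ σ)) =
      MM x * MM y * (Nf (cen x) (cen y ∘ σ) * f (wF (cen x) (cen y ∘ σ))) := by
    intro σ
    have hσ : 0 < MM (y ∘ σ) := by rw [MM_comp]; exact hyp
    rw [GG_mrg f hxp hσ, MM_comp, cen_comp]
  simp only [this, KK, ← Finset.mul_sum]
  ring

/-- A family of messages, closed under the rearrangements of the colours, of total mass one. -/
structure Fam {Ω : Type} [Fintype Ω] (y : Ω → V q) : Prop where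
  nn : ∀ ξ, NN (y ξ)
  sym : ∀ (σ : Equiv.Perm (Fin q)) (F : V q → ℝ), ∑ ξ, F (y ξ ∘ σ) = ∑ ξ, F (y ξ)
  mass : ∑ ξ, MM (y ξ) = 1

lemma factorial_ne : ((q.factorial : ℕ) : ℝ) ≠ 0 := Nat.cast_ne_zero.2 (Nat.factorial_ne_zero q)

lemma Fam.avg {Ω : Type} [Fintype Ω] {y : Ω → V q} (h : Fam y) (F : V q → ℝ) :
    ∑ ξ, F (y ξ) = ∑ ξ, (1 / (q.factorial : ℝ)) * ∑ σ : Equiv.Perm (Fin q), F (y ξ ∘ σ) := by
  have hf : ((q.factorial : ℕ) : ℝ) ≠ 0 := factorial_ne
  rw [← Finset.mul_sum, Finset.sum_comm]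
  simp only [h.sym]
  simp only [Finset.sum_const, Finset.card_univ, Fintype.card_perm, Fintype.card_fin, nsmul_eq_mul]
  field_simp

lemma Fam.coord {Ω : Type} [Fintype Ω] {y : Ω → V q} (h : Fam y) (i : Fin q) :
    ∑ ξ, y ξ i = 1 / (q : ℝ) := by
  have hq : (q : ℝ) ≠ 0 := q_ne
  have e : ∀ j, ∑ ξ, y ξ j = ∑ ξ, y ξ i := by
    intro j
    have := h.sym (Equiv.swap i j) (fun z => z i)
    simpa [Function.comp] using this
  have h2 := h.mass
  simp only [MM] at h2
  rw [Finset.sum_comm] at h2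
  simp only [e] at h2
  simp only [Finset.sum_const, Finset.card_univ, Fintype.card_fin, nsmul_eq_mul] at h2
  field_simp
  linarith

/-- The central identity: the sum over two families, the second closed under rearrangements. -/
theorem fam_KK {A Ω : Type} [Fintype A] [Fintype Ω] {x : A → V q} {y : Ω → V q} (hy : Fam y)
    (hx : ∀ η, NN (x η)) (f : V q → ℝ) :
    ∑ η, ∑ ξ, GG f (mrg (x η) (y ξ)) =
      ∑ η, ∑ ξ, MM (x η) * MM (y ξ) * KK f (cen (x η)) (cen (y ξ)) := by
  apply Finset.sum_congr rfl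
  intro η _
  rw [hy.avg (fun y' => GG f (mrg (x η) y'))]
  apply Finset.sum_congr rfl
  intro ξ _
  exact avg_GG_mrg f (hx η) (hy.nn ξ)

/-- A product remainder sums to a product. -/
lemma sum_product {A Ω : Type} [Fintype A] [Fintype Ω] (x : A → V q) (y : Ω → V q) (u v : V q → ℝ) :
    ∑ η, ∑ ξ, MM (x η) * MM (y ξ) * (u (cen (x η)) * v (cen (y ξ))) =
      (∑ η, GG u (x η)) * ∑ ξ, GG v (y ξ) := by
  rw [Finset.sum_mul_sum]
  apply Finset.sum_congr rfl
  intro η _
  apply Finset.sum_congr rfl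
  intro ξ _
  simp only [GG]
  ring

/-- The homogeneous extension of a function nonnegative on the relevant domain. -/
lemma GG_nonneg_on {χ : V q → ℝ} {D : V q → Prop} {x : V q} (hx : NN x) (hd : 0 < MM x → D (cen x))
    (hχ : ∀ c, D c → 0 ≤ χ c) : 0 ≤ GG χ x := by
  rcases (MM_nonneg hx).eq_or_lt with h | h
  · simp [GG, ← h]
  · exact mul_nonneg h.le (hχ _ (hd h))

/-- The uniform message. -/
def uni : V q := fun _ => 1 / (q : ℝ)

lemma MM_uni : MM (uni : V q) = 1 := by
  have hq : (q : ℝ) ≠ 0 := q_ne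
  simp [MM, uni, Finset.card_univ]

lemma cen_uni : cen (uni : V q) = 0 := by
  funext i
  simp [cen, MM_uni, uni]

lemma mrg_uni (y : V q) : mrg uni y = y := by
  have hq : (q : ℝ) ≠ 0 := q_ne
  funext i
  simp only [mrg, uni]
  field_simp

lemma GG_uni (χ : V q → ℝ) : GG χ (uni : V q) = χ 0 := by
  simp [GG, MM_uni, cen_uni]

lemma inSx_zero : InSx 1 (0 : V q) := by
  refine ⟨by simp, fun i => ?_⟩
  have := q_pos (q := q)
  simp only [Pi.zero_apply]
  have : (0 : ℝ) ≤ 1 / (q : ℝ) := by positivity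
  have e : -(1 : ℝ) / (q : ℝ) = - (1 / (q : ℝ)) := by ring
  rw [e]
  linarith

/-- Bound on the coordinates of the centred simplex. -/
lemma InSx.le_one {c : V q} (hc : InSx 1 c) (i : Fin q) : c i ≤ 1 := by
  obtain ⟨h1, h2⟩ := hc
  have hq : (0 : ℝ) < q := q_pos
  have e : ∑ j, (c j + 1 / (q : ℝ)) = 1 := by
    rw [Finset.sum_add_distrib, h1]
    simp
  have h3 : c i + 1 / (q : ℝ) ≤ ∑ j, (c j + 1 / (q : ℝ)) := by
    apply Finset.single_le_sum (f := fun j => c j + 1 / (q : ℝ)) (fun j _ => ?_) (Finset.mem_univ i)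
    have := h2 j
    have e2 : -(1 : ℝ) / (q : ℝ) = - (1 / (q : ℝ)) := by ring
    rw [e2] at this
    linarith
  have h4 : (0 : ℝ) ≤ 1 / (q : ℝ) := by positivity
  linarith

lemma InSx.abs_le {c : V q} (hc : InSx 1 c) (i : Fin q) : |c i| ≤ 1 := by
  have hq : (1 : ℝ) ≤ q := by
    have := NeZero.pos q
    exact_mod_cast this
  have h2 := hc.2 i
  have h3 : -(1 : ℝ) ≤ -(1 : ℝ) / (q : ℝ) := by
    rw [le_div_iff₀ q_pos]
    nlinarith
  exact _root_.abs_le.2 ⟨by linarith, hc.le_one i⟩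

lemma p2_nonneg (c : V q) : 0 ≤ p2 c := Finset.sum_nonneg fun i _ => sq_nonneg _

lemma p2_le {c : V q} (hc : InSx 1 c) : p2 c ≤ q := by
  have : p2 c ≤ ∑ _i : Fin q, (1 : ℝ) := by
    apply Finset.sum_le_sum
    intro i _
    have := hc.abs_le i
    rw [← sq_abs]
    have h0 := abs_nonneg (c i)
    nlinarith
  simpa using this

lemma p2_smul (s : ℝ) (c : V q) : p2 (s • c) = s ^ 2 * p2 c := by
  simp only [p2, Pi.smul_apply, smul_eq_mul, Finset.mul_sum]
  apply Finset.sum_congr rfl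
  intro i _
  ring

end

end Vale.Agent.Lib.P154Q
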