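import Vale.Agent.Lib.P154Q.Msg

/-!
# The messages of a fixed tree

The channel may have a negative eigenvalue: we only use that its entries are nonnegative.
-/

open Finset

namespace Vale.Agent.Lib.P154Q

open Vale.Agent.Lib.P154GW

noncomputable section

set_option linter.unusedSectionVars false

variable {q : ℕ} [NeZero q] {lam : ℝ}

lemma chan_sum (lam : ℝ) (i : Fin q) : ∑ j, chan q lam i j = 1 := by
  have hq : (q : ℝ) ≠ 0 := q_ne
  simp only [chan, Finset.sum_add_distrib, ← Finset.mul_sum, Finset.sum_ite_eq, Finset.mem_univ,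
    if_true, Finset.sum_const, Finset.card_univ, Fintype.card_fin, nsmul_eq_mul]
  field_simp
  ring

lemma chan_perm (σ : Equiv.Perm (Fin q)) (lam : ℝ) (i j : Fin q) :
    chan q lam (σ i) (σ j) = chan q lam i j := by
  simp only [chan, σ.injective.eq_iff]

lemma sum_leaves_succ {M : Type*} [AddCommMonoid M] (n : ℕ) (k : ℕ) (T : Fin k → Tr n)
    (F : Leaves q (n + 1) ⟨k, T⟩ → M) :
    (∑ ω : Leaves q (n + 1) ⟨k, T⟩, F ω) = ∑ ω : (c : Fin k) → Leaves q n (T c), F ω := rfl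

/-- The likelihood of a subtree seen from the parent of its root. -/
def childLik (lam : ℝ) (n : ℕ) (T : Tr n) (ξ : Leaves q n T) (i : Fin q) : ℝ :=
  ∑ j, chan q lam i j * lik q lam n T ξ j

lemma lik_succ (n k : ℕ) (T : Fin k → Tr n) (ω : (c : Fin k) → Leaves q n (T c)) (i : Fin q) :
    lik q lam (n + 1) ⟨k, T⟩ ω i = ∏ c : Fin k, childLik lam n (T c) (ω c) i := rfl

lemma lik_nonneg (hch : ∀ i j, 0 ≤ chan q lam i j) :
    ∀ (n : ℕ) (T : Tr n) (ω : Leaves q n T) (i : Fin q), 0 ≤ lik q lam n T ω i := by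
  intro n
  induction n with
  | zero =>
    intro T ω i
    show 0 ≤ (if i = (show Fin q from ω) then (1 : ℝ) else 0)
    split_ifs <;> norm_num
  | succ n ih =>
    rintro ⟨k, T⟩ ω i
    rw [lik_succ]
    exact Finset.prod_nonneg fun c _ => Finset.sum_nonneg fun j _ =>
      mul_nonneg (hch i j) (ih _ _ _)

lemma lik_total : ∀ (n : ℕ) (T : Tr n) (i : Fin q), ∑ ω : Leaves q n T, lik q lam n T ω i = 1 := by
  intro n
  induction n with
  | zero =>
    intro T i
    show ∑ τ : Fin q, (if i = τ then (1 : ℝ) else 0) = 1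
    simp
  | succ n ih =>
    rintro ⟨k, T⟩ i
    rw [sum_leaves_succ]
    simp only [lik_succ]
    have := (Finset.prod_univ_sum (fun c : Fin k => (Finset.univ : Finset (Leaves q n (T c))))
      (fun c x => childLik lam n (T c) x i)).symm
    rw [Fintype.piFinset_univ] at this
    rw [this]
    apply Finset.prod_eq_one
    intro c _
    unfold childLik
    rw [Finset.sum_comm]
    simp only [← Finset.mul_sum, ih, mul_one]
    exact chan_sum lam i

/-- The colour action on configurations. -/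
def act (σ : Equiv.Perm (Fin q)) : (n : ℕ) → (T : Tr n) → Leaves q n T ≃ Leaves q n T
  | 0, _ => σ
  | n + 1, T => Equiv.piCongrRight (fun c => act σ n ((show Σ k : ℕ, (Fin k → Tr n) from T).2 c))

lemma lik_act (σ : Equiv.Perm (Fin q)) :
    ∀ (n : ℕ) (T : Tr n) (ω : Leaves q n T) (i : Fin q),
      lik q lam n T (act σ n T ω) (σ i) = lik q lam n T ω i := by
  intro n
  induction n with
  | zero =>
    intro T ω i
    have key : ∀ (τ : Fin q) (i : Fin q),
        (if σ i = σ τ then (1 : ℝ) else 0) = if i = τ then 1 else 0 := by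
      intro τ i; simp
    exact key ω i
  | succ n ih =>
    rintro ⟨k, T⟩ ω i
    show (∏ c : Fin k, childLik lam n (T c) (act σ n (T c) (ω c)) (σ i))
      = ∏ c : Fin k, childLik lam n (T c) (ω c) i
    apply Finset.prod_congr rfl
    intro c _
    unfold childLik
    rw [← Equiv.sum_comp σ]
    apply Finset.sum_congr rfl
    intro j _
    rw [chan_perm, ih]

/-- The unnormalised message of a configuration at the root. -/
def xT (lam : ℝ) (n : ℕ) (T : Tr n) (ω : Leaves q n T) : V q :=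
  fun i => (1 / (q : ℝ)) * lik q lam n T ω i

/-- The message seen from the parent of the root. -/
def yT (lam : ℝ) (n : ℕ) (T : Tr n) (ω : Leaves q n T) : V q :=
  fun i => (1 / (q : ℝ)) * childLik lam n T ω i

lemma xT_nn (hch : ∀ i j, 0 ≤ chan q lam i j) (n : ℕ) (T : Tr n) (ω : Leaves q n T) :
    NN (xT lam n T ω) := fun i => mul_nonneg (by positivity) (lik_nonneg hch n T ω i)

lemma yT_nn (hch : ∀ i j, 0 ≤ chan q lam i j) (n : ℕ) (T : Tr n) (ω : Leaves q n T) :
    NN (yT lam n T ω) := fun i =>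
  mul_nonneg (by positivity) (Finset.sum_nonneg (fun j _ =>
    mul_nonneg (hch i j) (lik_nonneg hch n T ω j)))

lemma yT_eq (n : ℕ) (T : Tr n) (ω : Leaves q n T) (i : Fin q) :
    yT lam n T ω i = lam * xT lam n T ω i + (1 - lam) / (q : ℝ) * MM (xT lam n T ω) := by
  simp only [yT, xT, childLik, MM, chan, add_mul, Finset.sum_add_distrib, mul_assoc, ite_mul,
    one_mul, zero_mul, Finset.sum_ite_eq, Finset.mem_univ, if_true, mul_add, ← Finset.mul_sum]
  ring

lemma MM_yT (n : ℕ) (T : Tr n) (ω : Leaves q n T) : MM (yT lam n T ω) = MM (xT lam n T ω) := by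
  have hq : (q : ℝ) ≠ 0 := q_ne
  have e : MM (yT lam n T ω) = ∑ i, yT lam n T ω i := rfl
  rw [e]
  simp only [yT_eq]
  rw [Finset.sum_add_distrib, ← Finset.mul_sum]
  simp only [Finset.sum_const, Finset.card_univ, Fintype.card_fin, nsmul_eq_mul]
  have e2 : ∑ i, xT lam n T ω i = MM (xT lam n T ω) := rfl
  rw [e2]
  field_simp
  ring

lemma cen_yT (n : ℕ) (T : Tr n) (ω : Leaves q n T) (h : 0 < MM (xT lam n T ω)) :
    cen (yT lam n T ω) = lam • cen (xT lam n T ω) := by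
  have hne := ne_of_gt h
  have hq : (q : ℝ) ≠ 0 := q_ne
  funext i
  simp only [cen.eq_1 (yT lam n T ω), MM_yT, yT_eq, Pi.smul_apply, smul_eq_mul, cen.eq_1 (xT lam n T ω)]
  field_simp
  ring

lemma sum_xT_mass (n : ℕ) (T : Tr n) : ∑ ω : Leaves q n T, MM (xT (q := q) lam n T ω) = 1 := by
  have hq : (q : ℝ) ≠ 0 := q_ne
  simp only [MM, xT]
  rw [Finset.sum_comm]
  simp only [← Finset.mul_sum, lik_total, mul_one, Finset.sum_const, Finset.card_univ,
    Fintype.card_fin, nsmul_eq_mul]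
  field_simp

lemma yT_comp (n : ℕ) (T : Tr n) (σ : Equiv.Perm (Fin q)) (ω : Leaves q n T) :
    yT lam n T ω ∘ σ = yT lam n T (act σ⁻¹ n T ω) := by
  funext i
  simp only [Function.comp, yT, childLik]
  congr 1
  rw [← Equiv.sum_comp σ (fun j => chan q lam (σ i) j * lik q lam n T ω j)]
  apply Finset.sum_congr rfl
  intro j _
  have e : σ⁻¹ (σ j) = j := by simp
  have h1 := lik_act (lam := lam) σ⁻¹ n T ω (σ j)
  rw [e] at h1
  rw [h1, chan_perm]

lemma yT_fam (hch : ∀ i j, 0 ≤ chan q lam i j) (n : ℕ) (T : Tr n) : Fam (yT (q := q) lam n T) where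
  nn := yT_nn hch n T
  sym := by
    intro σ F
    simp only [yT_comp]
    exact Equiv.sum_comp (act σ⁻¹ n T) (fun ξ => F (yT lam n T ξ))
  mass := by
    simp only [MM_yT]
    exact sum_xT_mass n T

/-- The merged message of children. -/
def mergeAll {k : ℕ} {Ω : Fin k → Type} (y : ∀ c, Ω c → V q) (ω : ∀ c, Ω c) : V q :=
  fun i => (1 / (q : ℝ)) * ∏ c, ((q : ℝ) * y c (ω c) i)

lemma xT_succ (n k : ℕ) (T : Fin k → Tr n) (ω : (c : Fin k) → Leaves q n (T c)) :
    xT lam (n + 1) ⟨k, T⟩ ω = mergeAll (fun c => yT lam n (T c)) ω := by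
  have hq : (q : ℝ) ≠ 0 := q_ne
  funext i
  simp only [xT, mergeAll, yT]
  rw [lik_succ]
  congr 1
  apply Finset.prod_congr rfl
  intro c _
  field_simp

lemma mergeAll_succ {k : ℕ} {Ω : Fin (k + 1) → Type} (y : ∀ c, Ω c → V q) (ω : ∀ c, Ω c) :
    mergeAll y ω = mrg (mergeAll (Ω := fun c : Fin k => Ω c.castSucc) (fun c => y c.castSucc)
      (fun c => ω c.castSucc)) (y (Fin.last k) (ω (Fin.last k))) := by
  funext i
  simp only [mergeAll, mrg]
  rw [Fin.prod_univ_castSucc]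
  ring

section

variable {k : ℕ}

lemma mergeAll_nn {Ω : Fin k → Type} {y : ∀ c, Ω c → V q} (hy : ∀ c ξ, NN (y c ξ)) (ω : ∀ c, Ω c) :
    NN (mergeAll y ω) := by
  intro i
  apply mul_nonneg (by positivity)
  exact Finset.prod_nonneg fun c _ => mul_nonneg (by positivity) (hy c (ω c) i)

lemma mergeAll_coord {Ω : Fin k → Type} [∀ c, Fintype (Ω c)] {y : ∀ c, Ω c → V q}
    (hy : ∀ c, Fam (y c)) (i : Fin q) :
    ∑ ω : (∀ c, Ω c), mergeAll y ω i = 1 / (q : ℝ) := by
  have hq : (q : ℝ) ≠ 0 := q_ne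
  simp only [mergeAll]
  rw [← Finset.mul_sum]
  have := (Finset.prod_univ_sum (fun c : Fin k => (Finset.univ : Finset (Ω c)))
    (fun c x => (q : ℝ) * y c x i)).symm
  rw [Fintype.piFinset_univ] at this
  rw [this]
  have h2 : ∀ c : Fin k, ∑ x, (q : ℝ) * y c x i = 1 := by
    intro c
    rw [← Finset.mul_sum, (hy c).coord i]
    field_simp
  simp [h2]

lemma mergeAll_mass {Ω : Fin k → Type} [∀ c, Fintype (Ω c)] {y : ∀ c, Ω c → V q}
    (hy : ∀ c, Fam (y c)) :
    ∑ ω : (∀ c, Ω c), MM (mergeAll y ω) = 1 := by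
  have hq : (q : ℝ) ≠ 0 := q_ne
  simp only [MM]
  rw [Finset.sum_comm]
  simp only [mergeAll_coord hy, Finset.sum_const, Finset.card_univ, Fintype.card_fin, nsmul_eq_mul]
  field_simp

lemma mergeAll_zero {Ω : Fin 0 → Type} (y : ∀ c, Ω c → V q) (ω : ∀ c, Ω c) :
    mergeAll y ω = uni := by
  funext i
  simp [mergeAll, uni]

end

lemma sum_snoc {k : ℕ} {Ω : Fin (k + 1) → Type} [∀ c, Fintype (Ω c)] (F : (∀ c, Ω c) → ℝ) :
    ∑ ω : (∀ c, Ω c), F ω =
      ∑ η : (∀ c : Fin k, Ω c.castSucc), ∑ a : Ω (Fin.last k), F (Fin.snoc (α := Ω) η a) := by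
  rw [← Equiv.sum_comp (Fin.snocEquiv Ω) F, Fintype.sum_prod_type, Finset.sum_comm]
  rfl

/-- The expected value of `χ` given the tree. -/
def Sp (lam : ℝ) (χ : V q → ℝ) (n : ℕ) (T : Tr n) : ℝ :=
  ∑ ω : Leaves q n T, GG χ (xT lam n T ω)

lemma Sp_succ (χ : V q → ℝ) (n k : ℕ) (T : Fin k → Tr n) :
    Sp lam χ (n + 1) ⟨k, T⟩ =
      ∑ ω : (c : Fin k) → Leaves q n (T c), GG χ (mergeAll (fun c => yT lam n (T c)) ω) := by
  unfold Sp
  rw [sum_leaves_succ]
  apply Finset.sum_congr rfl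
  intro ω _
  rw [xT_succ]

lemma Sp_nonneg (hch : ∀ i j, 0 ≤ chan q lam i j) {χ : V q → ℝ} (hχ : ∀ c, InSx 1 c → 0 ≤ χ c)
    (n : ℕ) (T : Tr n) : 0 ≤ Sp lam χ n T :=
  Finset.sum_nonneg fun ω _ => GG_nonneg_on (xT_nn hch n T ω)
    (fun h => cen_inSx (xT_nn hch n T ω) h) hχ

lemma Sp_le (hch : ∀ i j, 0 ≤ chan q lam i j) {χ : V q → ℝ} {C : ℝ} (hχ : ∀ c, InSx 1 c → χ c ≤ C)
    (n : ℕ) (T : Tr n) : Sp lam χ n T ≤ C := by
  have : Sp lam χ n T ≤ ∑ ω : Leaves q n T, MM (xT (q := q) lam n T ω) * C := by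
    apply Finset.sum_le_sum
    intro ω _
    rcases (MM_nonneg (xT_nn hch n T ω)).eq_or_lt with h | h
    · simp [GG, ← h]
    · exact mul_le_mul_of_nonneg_left (hχ _ (cen_inSx (xT_nn hch n T ω) h)) h.le
  rw [← Finset.sum_mul, sum_xT_mass, one_mul] at this
  exact this

/-- Expectation over the child message, of a function comparing with a scaled function. -/
lemma sum_yT_le {χ χ' : V q → ℝ} {f : ℝ} (hch : ∀ i j, 0 ≤ chan q lam i j)
    (hs : ∀ c, InSx 1 c → χ (lam • c) ≤ f * χ' c) (n : ℕ) (T : Tr n) :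
    ∑ ξ, GG χ (yT (q := q) lam n T ξ) ≤ f * Sp lam χ' n T := by
  unfold Sp
  rw [Finset.mul_sum]
  apply Finset.sum_le_sum
  intro ξ _
  rcases (MM_nonneg (xT_nn hch n T ξ)).eq_or_lt with h | h
  · simp [GG, MM_yT, ← h]
  · simp only [GG, MM_yT]
    rw [cen_yT n T ξ h]
    have := mul_le_mul_of_nonneg_left (hs _ (cen_inSx (xT_nn hch n T ξ) h)) h.le
    calc _ ≤ _ := this
      _ = _ := by ring

lemma le_sum_yT {χ χ' : V q → ℝ} {f : ℝ} (hch : ∀ i j, 0 ≤ chan q lam i j)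
    (hs : ∀ c, InSx 1 c → f * χ' c ≤ χ (lam • c)) (n : ℕ) (T : Tr n) :
    f * Sp lam χ' n T ≤ ∑ ξ, GG χ (yT (q := q) lam n T ξ) := by
  unfold Sp
  rw [Finset.mul_sum]
  apply Finset.sum_le_sum
  intro ξ _
  rcases (MM_nonneg (xT_nn hch n T ξ)).eq_or_lt with h | h
  · simp [GG, MM_yT, ← h]
  · simp only [GG, MM_yT]
    rw [cen_yT n T ξ h]
    have := mul_le_mul_of_nonneg_left (hs _ (cen_inSx (xT_nn hch n T ξ) h)) h.le
    calc _ = _ := by ring
      _ ≤ _ := this

end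

end Vale.Agent.Lib.P154Q
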